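import Vale.Agent.P088.H72.X.Defs

/-!
# P088, ARBITRARY conformally flat base `σ · 1`, no condition at the boundary: rows

The boundary half of theorem B + C; `RigC` is the interior half (theorem C).
-/

open MeasureTheory Set Filter Topology
open scoped ContDiff Matrix

noncomputable section

namespace Vale.Agent.P088.LR.BY

open Vale.Agent.P088.LR Vale.Agent.P088.LR.B Vale.Agent.P088.LR.CF Vale.Agent.P088.H639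

/-- (Y_REC) formal series of all orders for `s` near `σ · 1`, conormal datum `f`, right side `-g`. -/
def RowREC : Prop := ∀ {n : ℕ} (ρ : V n → ℝ), Dom ρ → ∀ σ : V n → ℝ, SmP σ →
  (∀ x ∉ core n, σ x = 1) → ∀ (k : ℕ) (δ : ℝ), 0 < δ →
  ∃ (K : ℕ) (δ' : ℝ), 0 < δ' ∧ ∀ s : MF n, SmM s → (∀ x, (s x).IsSymm) →
  (∀ i j, Cl K δ' (fun x => s x i j - sc σ x i j)) → ∀ f g : V n → ℝ, ContDiff ℝ ∞ f →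
  ContDiff ℝ ∞ g → Cl K δ' f → Cl K δ' g → ∃ c : ℕ → V n → ℝ,
    (∀ i, ContDiff ℝ ∞ (c i)) ∧ (∀ i ≤ k, Cl k δ (c i)) ∧ (∀ x, c 0 x = 0) ∧
    ((∀ x, f x = 0) → ∀ x, c 1 x = 0) ∧
    (∀ x, ρ x = 0 → gr s ρ ρ x * c 1 x = f x) ∧
    ∀ M : ℕ, ∃ r > 0, ∃ E, ContDiff ℝ ∞ E ∧ ∀ x, |ρ x| < r →
      g x + dr s (fun y => ∑ i ∈ Finset.range (M + 2), ρ y ^ i * c i y) x = ρ x ^ M * E x

/-- (Y_BOR) formal harmonic coordinates at the boundary, of `σ · 1` (`w₁`, the identity to first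
order) and of `s` near `σ · 1` (`w₂`, near `w₁`), with the same Cauchy data; from REC. -/
def RowBOR : Prop := ∀ {n : ℕ} (ρ : V n → ℝ), Dom ρ → ∀ σ : V n → ℝ, SmP σ →
  (∀ x ∉ core n, σ x = 1) → ∃ w₁ : V n → V n, ContDiff ℝ ∞ w₁ ∧ HasCompactSupport w₁ ∧
    Cl 1 (1 / 4) w₁ ∧ (∀ x, ρ x = 0 → w₁ x = 0) ∧
    (∀ a x, ρ x = 0 → gr (sc σ) (fun y => y a + w₁ y a) ρ x = σ x * pd a ρ x) ∧
    (∀ a (m : ℕ), ∃ r > 0, ∃ E : V n → ℝ, ContDiff ℝ ∞ E ∧ ∀ x, |ρ x| < r →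
      dr (sc σ) (fun y => y a + w₁ y a) x = ρ x ^ m * E x) ∧
    ∀ (k : ℕ) (ε : ℝ), 0 < ε → ∃ (K : ℕ) (δ : ℝ), 0 < δ ∧ ∀ s : MF n, SmM s →
      (∀ x, (s x).IsSymm) → (∀ i j, Cl K δ (fun x => s x i j - sc σ x i j)) →
      ∃ w₂ : V n → V n, ContDiff ℝ ∞ w₂ ∧ Cl k ε (fun x => w₂ x - w₁ x) ∧
        (∀ x, ρ x = 0 → w₂ x = 0) ∧
        (∀ a x, ρ x = 0 → gr s (fun y => y a + w₂ y a) ρ x = σ x * pd a ρ x) ∧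
        ∀ a (m : ℕ), ∃ r > 0, ∃ E : V n → ℝ, ContDiff ℝ ∞ E ∧ ∀ x, |ρ x| < r →
          dr s (fun y => y a + w₂ y a) x = ρ x ^ m * E x

/-- (Y_PHI) `Φ = (id + w₁)⁻¹ ∘ (id + w₂)` is near the identity if `w₂` is near `w₁`. -/
def RowPHI : Prop := ∀ {n : ℕ} (w₁ : V n → V n), ContDiff ℝ ∞ w₁ → HasCompactSupport w₁ →
  Cl 1 (1 / 4) w₁ → ∀ (k : ℕ) (ε : ℝ), 0 < ε → ∃ δ > 0, ∀ (Ω : Set (V n)) (w₂ : V n → V n),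
  ContDiff ℝ ∞ w₂ → (∀ x ∉ Ω, w₂ x = w₁ x) → Cl (k + 1) δ (fun x => w₂ x - w₁ x) →
  ∃ w K, Dif Ω w K ∧ Cl k ε w ∧ ∀ x, (x + w x) + w₁ (x + w x) = x + w₂ x

/-- (Y_NORM) the push-forward of `s` near `σ · 1` by a map near the identity is near `σ · 1`. -/
def RowNORM : Prop := ∀ {n : ℕ} (σ : V n → ℝ), SmP σ → (∀ x ∉ core n, σ x = 1) →
  ∀ (k : ℕ) (ε : ℝ), 0 < ε → ∃ δ > 0, ∀ (s : MF n) (w K : V n → V n), SmM s → Dif univ w K →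
  (∀ i j, Cl k δ (fun x => s x i j - sc σ x i j)) → Cl (k + 1) δ w →
  ∀ i j, Cl k ε (fun x => psh s w K x i j - sc σ x i j)

/-- (Y_BD) the boundary step, base `σ ≥ m > 0`; from `BX.RowCON` and 109's `enex`. -/
def RowBD : Prop := ∀ {n : ℕ}, 3 ≤ n → ∀ μ : ℝ, 0 < μ → ∃ a₀ > 0, ∀ (ρ : V n → ℝ), Dom ρ →
  ∀ σ : V n → ℝ, ContDiff ℝ ∞ σ → (∀ x, μ ≤ σ x) → ∀ t : MF n, SmM t →
  (∀ x, (t x).PosSemidef) → SE (Om ρ) (sc σ) t →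
  (∀ x ∈ Om ρ, ∀ i j, |t x i j - sc σ x i j| ≤ a₀) → ∀ (m : ℕ) (b : Fin n → Fin n → V n → ℝ),
  (∀ i j, ContDiff ℝ ∞ (b i j)) → (∀ i j x, b i j x = b j i x) →
  (∀ x i j, t x i j - sc σ x i j = ρ x ^ m * b i j x) →
  (∀ x, ρ x = 0 → ∀ i, ∑ j, b i j x * pd j ρ x = 0) → ∀ x, ρ x = 0 → ∀ i j, b i j x = 0

/-- (Y_INF) contact of infinite order, base `σ ≥ m > 0`; from HAD, BD, TOPO. -/
def RowINF : Prop := ∀ {n : ℕ}, 3 ≤ n → ∀ μ : ℝ, 0 < μ → ∃ a₀ > 0, ∀ (ρ : V n → ℝ), Dom ρ →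
  ∀ σ : V n → ℝ, ContDiff ℝ ∞ σ → (∀ x, μ ≤ σ x) → ∀ t : MF n, SmM t →
  (∀ x, (t x).PosSemidef) → SE (Om ρ) (sc σ) t →
  (∀ x ∈ Om ρ, ∀ i j, |t x i j - sc σ x i j| ≤ a₀) →
  ∀ w₁ : V n → V n, ContDiff ℝ ∞ w₁ → (∀ x, ρ x = 0 → (jm w₁ x).det ≠ 0) →
  (∀ a x, ρ x = 0 → gr t (fun y => y a + w₁ y a) ρ x = gr (sc σ) (fun y => y a + w₁ y a) ρ x) →
  (∀ a (m : ℕ), ∃ r > 0, ∃ E : V n → ℝ, ContDiff ℝ ∞ E ∧ ∀ x, |ρ x| < r →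
    dr t (fun y => y a + w₁ y a) x = ρ x ^ m * E x) →
  (∀ a (m : ℕ), ∃ r > 0, ∃ E : V n → ℝ, ContDiff ℝ ∞ E ∧ ∀ x, |ρ x| < r →
    dr (sc σ) (fun y => y a + w₁ y a) x = ρ x ^ m * E x) →
  ∀ m : ℕ, ∃ b : Fin n → Fin n → V n → ℝ, (∀ i j, ContDiff ℝ ∞ (b i j)) ∧
    ∀ x i j, t x i j - sc σ x i j = ρ x ^ m * b i j x

/-- The interior half (theorem C, tensor form): rigidity of an arbitrary `σ · 1`. -/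
def RigC (n : ℕ) : Prop := ∀ σ : V n → ℝ, SmP σ → (∀ x ∉ bal n, σ x = 1) →
  ∃ (k : ℕ) (ε : ℝ), 0 < ε ∧ ∀ (Ω : Set (V n)), IsOpen Ω → interior (closure Ω) = Ω →
  Ω ⊆ bal n → ∀ s : MF n, SmM s → (∀ x, (s x).IsSymm) → (∀ x ∉ Ω, s x = sc σ x) →
  (∀ i j, Cl k ε (fun x => s x i j - sc σ x i j)) → St2 Ω (sc σ) s →
  ∃ w K, Dif Ω w K ∧ ∀ x, psh s w K x = sc σ x

/-- (Y_FIN) rigidity of an arbitrary `σ · 1` on a smooth domain in the ball, no condition at the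
boundary, tensor form. -/
def RowFIN : Prop := ∀ n : ℕ, 3 ≤ n → ∀ ρ : V n → ℝ, Dom ρ → (∀ x ∉ bal n, ρ x = -1) →
  ∀ σ : V n → ℝ, SmP σ → (∀ x ∉ bal n, σ x = 1) → ∃ (k : ℕ) (ε : ℝ), 0 < ε ∧
  ∀ s : MF n, SmM s → (∀ x, (s x).PosDef) →
  (∀ i j, Cl k ε (fun x => s x i j - sc σ x i j)) → SE (Om ρ) (sc σ) s →
  ∃ Φ Ψ : V n → V n, ContDiff ℝ ∞ Φ ∧ ContDiff ℝ ∞ Ψ ∧
    (∀ x, Ψ (Φ x) = x) ∧ (∀ y, Φ (Ψ y) = y) ∧ (∀ x, ρ x = 0 → Φ x = x) ∧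
    (∀ x, 0 < ρ (Φ x) ↔ 0 < ρ x) ∧ (∀ x, 0 < (Jm Φ x).det) ∧
    ∀ x, 0 ≤ ρ x → (Jm Φ x).det⁻¹ • (Jm Φ x * s x * (Jm Φ x)ᵀ) = sc σ (Φ x)

/-- **Local rigidity of every conformally flat metric on every smooth bounded domain, no condition
at the boundary.** -/
def FinCC : Prop := ∀ n : ℕ, 3 ≤ n → ∀ ρ : V n → ℝ, SDom ρ → ∀ c : V n → ℝ, SmP c →
  ∃ (k : ℕ) (ε : ℝ), 0 < ε ∧ ∀ g : MF n, SmM g → (∀ x, (g x).PosDef) →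
  (∀ i j, Cl k ε (fun x => g x i j - sc c x i j)) →
  SE (Om ρ) (sg (sc c)) (sg g) → ∃ Φ Ψ : V n → V n, ContDiff ℝ ∞ Φ ∧ ContDiff ℝ ∞ Ψ ∧
    (∀ x, Ψ (Φ x) = x) ∧ (∀ y, Φ (Ψ y) = y) ∧ (∀ x, ρ x = 0 → Φ x = x) ∧
    (∀ x, 0 < ρ (Φ x) ↔ 0 < ρ x) ∧ (∀ x, 0 < (Jm Φ x).det) ∧
    ∀ x, 0 ≤ ρ x → g x = c (Φ x) • ((Jm Φ x)ᵀ * Jm Φ x)

end Vale.Agent.P088.LR.BY
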