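import Vale.Agent.P088.H72.B.Sc
import Vale.Agent.P088.H442.Defs3
import Vale.Agent.P088.H198.Defs3

/-!
# P088, conformally flat base `σ · 1`, no condition at the boundary: rows

`sc`, `bal`, `St2` are those of `H442/Defs3`; `Dom`, `Om`, `dr`, `gr`, `dl`, `Jm` those of
`H72/B/Defs`; `SE` that of `H639/En`; `SmP`, `cx` those of `H198/Defs3`.
-/

open MeasureTheory Set Filter Topology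
open scoped ContDiff Matrix

noncomputable section

namespace Vale.Agent.P088.LR.BX

open Vale.Agent.P088.LR Vale.Agent.P088.LR.B Vale.Agent.P088.LR.CF Vale.Agent.P088.H639

/-- (X_MAP) transport by `x ↦ x + w x`, `w = 0` on the boundary. -/
def RowMAP : Prop := ∀ {n : ℕ} (ρ : V n → ℝ), Dom ρ → ∀ (w K : V n → V n), Dif univ w K →
  (∀ x, ρ x = 0 → w x = 0) → Cl 1 (1 / 2) w →
  (∀ x, 0 < ρ (x + w x) ↔ 0 < ρ x) ∧ ∀ s₁ s : MF n, SmM s₁ → SmM s →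
    (∀ x, (s x).PosSemidef) →
    SmM (psh s w K) ∧ (∀ x, (psh s w K x).PosSemidef) ∧
    (SE (Om ρ) s₁ s → SE (Om ρ) s₁ (psh s w K)) ∧
    ∀ w₁ w₂ : V n → V n, ContDiff ℝ ∞ w₁ → ContDiff ℝ ∞ w₂ →
      (∀ x, (x + w x) + w₁ (x + w x) = x + w₂ x) → ∀ a,
      ((∀ x, ρ x = 0 → gr s (fun y => y a + w₂ y a) ρ x = gr s₁ (fun y => y a + w₁ y a) ρ x) →
        ∀ x, ρ x = 0 → gr (psh s w K) (fun y => y a + w₁ y a) ρ x =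
          gr s₁ (fun y => y a + w₁ y a) ρ x) ∧
      ∀ m : ℕ, (∃ r > 0, ∃ E : V n → ℝ, ContDiff ℝ ∞ E ∧ ∀ x, |ρ x| < r →
        dr s (fun y => y a + w₂ y a) x = ρ x ^ m * E x) →
        ∃ r > 0, ∃ E : V n → ℝ, ContDiff ℝ ∞ E ∧ ∀ x, |ρ x| < r →
          dr (psh s w K) (fun y => y a + w₁ y a) x = ρ x ^ m * E x

/-- (X_EN) energy estimate, base `σ · 1`. -/
def RowEN : Prop := ∀ {n : ℕ} (ρ : V n → ℝ), Dom ρ → ∀ σ : V n → ℝ, ContDiff ℝ ∞ σ →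
  (∀ x, 1 / 2 ≤ σ x) → ∀ t : MF n, SmM t → (∀ x, (t x).PosSemidef) → SE (Om ρ) (sc σ) t →
  (∀ x ∈ Om ρ, ∀ i j, |t x i j - sc σ x i j| ≤ 1 / (4 * (n + 1))) →
  ∀ U : V n → ℂ, ContDiff ℝ ∞ U → (∀ x ∈ Om ρ, dv (sc σ) U x = 0) →
  ‖bl (Om ρ) (fun x => t x - sc σ x) U (fun x => (starRingEnd ℂ) (U x))‖ ≤
    4 * n * ∫ x in Om ρ, ∑ i, ∑ j, |t x i j - sc σ x i j| ^ 2 * ‖pd j U x‖ ^ 2

/-- (X_CGX) the equation `Δ r + 2 N ζ·∇ r = Q (1 + r)`, `ζ = ν + i τ`, on a ball (any potential,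
`N` large). -/
def RowCGX : Prop := ∀ {n : ℕ} (ν τ : V n), ∑ i, ν i ^ 2 = 1 → ∑ i, τ i ^ 2 = 1 →
  ∑ i, ν i * τ i = 0 → ∀ Q : V n → ℂ, ContDiff ℝ ∞ Q → ∀ R : ℝ,
  ∃ r : ℕ → V n → ℂ, (∀ N, ContDiff ℝ ∞ (r N)) ∧ ∀ ε > 0, ∀ᶠ N : ℕ in atTop,
    (∀ x, ‖x‖ ≤ R → dv (fun _ => 1) (r N) x +
      2 * (N : ℂ) * ∑ j, ((ν j : ℂ) + Complex.I * τ j) * pd j (r N) x = Q x * (1 + r N x)) ∧
    ∀ x, ‖x‖ ≤ R → ‖r N x‖ ≤ ε ∧ ∀ a, ‖pd a (r N) x‖ ≤ ε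

/-- (X_CON) `σ`-harmonic functions concentrating at a boundary point (`ν` = inward unit normal, `τ`
a unit tangent vector); from CGX. -/
def RowCON : Prop := ∀ {n : ℕ} (ρ : V n → ℝ), Dom ρ → ∀ σ : V n → ℝ, SmP σ →
  ∀ p, ρ p = 0 → ∀ ν τ : V n,
  ∑ i, ν i ^ 2 = 1 → ∑ i, τ i ^ 2 = 1 → ∑ i, ν i * τ i = 0 → (∃ c > 0, ∀ i, pd i ρ p = c * ν i) →
  ∃ U : ℕ → V n → ℂ, (∀ N, ContDiff ℝ ∞ (U N)) ∧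
    (∀ N, ∀ x ∈ Om ρ, dv (sc σ) (U N) x = 0) ∧
    ∀ j : ℕ, ∃ Z : ℕ → ℝ, (∀ N, 0 < Z N) ∧ ∀ F : V n → ℂ, ContinuousOn F (closure (Om ρ)) →
      ∀ a b, Tendsto (fun N => ((Z N : ℝ) : ℂ)⁻¹ * ∫ x in Om ρ, ((ρ x ^ j : ℝ) : ℂ) * F x *
        pd a (U N) x * (starRingEnd ℂ) (pd b (U N) x)) atTop
        (𝓝 (F p * ((ν a : ℂ) + Complex.I * τ a) *
          (starRingEnd ℂ) ((ν b : ℂ) + Complex.I * τ b)))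

/-- (X_BD) the boundary step; from CON, EN. -/
def RowBD : Prop := ∀ {n : ℕ}, 3 ≤ n → ∃ a₀ > 0, ∀ (ρ : V n → ℝ), Dom ρ → ∀ σ : V n → ℝ,
  ContDiff ℝ ∞ σ → (∀ x, 1 / 2 ≤ σ x) → ∀ t : MF n, SmM t →
  (∀ x, (t x).PosSemidef) → SE (Om ρ) (sc σ) t →
  (∀ x ∈ Om ρ, ∀ i j, |t x i j - sc σ x i j| ≤ a₀) → ∀ (m : ℕ) (b : Fin n → Fin n → V n → ℝ),
  (∀ i j, ContDiff ℝ ∞ (b i j)) → (∀ i j x, b i j x = b j i x) →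
  (∀ x i j, t x i j - sc σ x i j = ρ x ^ m * b i j x) →
  (∀ x, ρ x = 0 → ∀ i, ∑ j, b i j x * pd j ρ x = 0) → ∀ x, ρ x = 0 → ∀ i j, b i j x = 0

/-- (X_INF) contact of infinite order; from HAD, BD, TOPO. -/
def RowINF : Prop := ∀ {n : ℕ}, 3 ≤ n → ∃ a₀ > 0, ∀ (ρ : V n → ℝ), Dom ρ → ∀ σ : V n → ℝ,
  ContDiff ℝ ∞ σ → (∀ x, 1 / 2 ≤ σ x) → ∀ t : MF n, SmM t →
  (∀ x, (t x).PosSemidef) → SE (Om ρ) (sc σ) t →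
  (∀ x ∈ Om ρ, ∀ i j, |t x i j - sc σ x i j| ≤ a₀) →
  ∀ w₁ : V n → V n, ContDiff ℝ ∞ w₁ → (∀ x, ρ x = 0 → (jm w₁ x).det ≠ 0) →
  (∀ a x, ρ x = 0 → gr t (fun y => y a + w₁ y a) ρ x = gr (sc σ) (fun y => y a + w₁ y a) ρ x) →
  (∀ a (m : ℕ), ∃ r > 0, ∃ E : V n → ℝ, ContDiff ℝ ∞ E ∧ ∀ x, |ρ x| < r →
    dr t (fun y => y a + w₁ y a) x = ρ x ^ m * E x) →
  (∀ a (m : ℕ), ∃ r > 0, ∃ E : V n → ℝ, ContDiff ℝ ∞ E ∧ ∀ x, |ρ x| < r →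
    dr (sc σ) (fun y => y a + w₁ y a) x = ρ x ^ m * E x) →
  ∀ m : ℕ, ∃ b : Fin n → Fin n → V n → ℝ, (∀ i j, ContDiff ℝ ∞ (b i j)) ∧
    ∀ x i j, t x i j - sc σ x i j = ρ x ^ m * b i j x

/-- (X_FIN) rigidity of `σ · 1` near `1` on a smooth domain in the ball, no condition at the
boundary, tensor form. -/
def RowFIN : Prop := ∀ n : ℕ, 3 ≤ n → ∀ ρ : V n → ℝ, Dom ρ → (∀ x ∉ bal n, ρ x = -1) →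
  ∃ (k : ℕ) (ε : ℝ), 0 < ε ∧ ∀ σ : V n → ℝ, SmP σ → (∀ x ∉ bal n, σ x = 1) →
  Cl k ε (fun x => σ x - 1) → ∀ s : MF n, SmM s → (∀ x, (s x).PosDef) →
  (∀ i j, Cl k ε (fun x => s x i j - dl i j)) → SE (Om ρ) (sc σ) s →
  ∃ Φ Ψ : V n → V n, ContDiff ℝ ∞ Φ ∧ ContDiff ℝ ∞ Ψ ∧
    (∀ x, Ψ (Φ x) = x) ∧ (∀ y, Φ (Ψ y) = y) ∧ (∀ x, ρ x = 0 → Φ x = x) ∧
    (∀ x, 0 < ρ (Φ x) ↔ 0 < ρ x) ∧ (∀ x, 0 < (Jm Φ x).det) ∧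
    ∀ x, 0 ≤ ρ x → (Jm Φ x).det⁻¹ • (Jm Φ x * s x * (Jm Φ x)ᵀ) = sc σ (Φ x)

/-- **Local rigidity of the conformally flat metrics near the flat one on every smooth bounded
domain, no condition at the boundary.** -/
def FinC : Prop := ∀ n : ℕ, 3 ≤ n → ∀ ρ : V n → ℝ, SDom ρ → ∃ (k : ℕ) (ε : ℝ), 0 < ε ∧
  ∀ (c : V n → ℝ) (g : MF n), ContDiff ℝ ∞ c → (∀ x, 0 < c x) → SmM g → (∀ x, (g x).PosDef) →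
  Cl k ε (fun x => c x - 1) → (∀ i j, Cl k ε (fun x => g x i j - dl i j)) →
  SE (Om ρ) (sg (sc c)) (sg g) → ∃ Φ Ψ : V n → V n, ContDiff ℝ ∞ Φ ∧ ContDiff ℝ ∞ Ψ ∧
    (∀ x, Ψ (Φ x) = x) ∧ (∀ y, Φ (Ψ y) = y) ∧ (∀ x, ρ x = 0 → Φ x = x) ∧
    (∀ x, 0 < ρ (Φ x) ↔ 0 < ρ x) ∧ (∀ x, 0 < (Jm Φ x).det) ∧
    ∀ x, 0 ≤ ρ x → g x = c (Φ x) • ((Jm Φ x)ᵀ * Jm Φ x)

end Vale.Agent.P088.LR.BX
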