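import Vale.Agent.P088.H72.X.TopX
import Vale.Agent.P088.H442.C.Defs

/-!
# P088, theorem B + C over theorem C
-/

open MeasureTheory Set
open scoped ContDiff Matrix

noncomputable section

namespace Vale.Agent.P088.LR.BY

open Vale.Agent.P088.LR Vale.Agent.P088.LR.B Vale.Agent.P088.LR.CF

/-- The interior half from theorem C. -/
theorem rigC_of_top (h : CC.RowTOP) : ∀ n : ℕ, 3 ≤ n → BY.RigC n := by
  intro n hn σ hσ hσ1
  obtain ⟨k, hk⟩ := h n hn
  set φ : V n → ℝ := fun x => √(σ x) with hφ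
  have hφp : SmP φ := ⟨hσ.1.sqrt fun x => (hσ.2 x).ne', fun x => Real.sqrt_pos.2 (hσ.2 x)⟩
  obtain ⟨ε, hε, hR⟩ := hk φ hφp fun x hx => by
    show √(σ x) = 1
    rw [hσ1 x hx, Real.sqrt_one]
  have e : (fun x => φ x ^ 2) = σ := by
    funext x
    exact Real.sq_sqrt (hσ.2 x).le
  unfold CC.RigC at hR
  rw [e] at hR
  exact ⟨k, ε, hε, fun Ω hΩ hreg hΩb s hs hsy hoff hcl hst =>
    hR Ω hΩ hreg hΩb s hs hsy hoff hcl hst⟩

/-- **Local rigidity of every conformally flat metric on every smooth bounded domain, no condition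
at the boundary**, over theorem C. -/
theorem finCC_of_top (h : CC.RowTOP) : FinCC := finCC_of (rigC_of_top h)

end Vale.Agent.P088.LR.BY
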