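import Vale.Agent.P088.H72.X.Small
import Vale.Agent.P088.H442.CFAsm

/-!
# P088, theorem B + C: rows PHI and NORM
-/

open MeasureTheory Set Filter Topology
open scoped ContDiff Matrix

noncomputable section

namespace Vale.Agent.P088.LR.BY

open Vale.Agent.P088.LR Vale.Agent.P088.LR.B Vale.Agent.P088.LR.CF Vale.Agent.P088.H833
  Vale.Agent.P088.H634

variable {n : ℕ}

theorem cl_comp_apply {k : ℕ} {δ : ℝ} {f : V n → V n} (hf : ContDiff ℝ ∞ f) (h : Cl k δ f)
    (a : Fin n) : Cl k δ (fun x => f x a) := by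
  intro l hl x
  let L : V n →L[ℝ] ℝ := ContinuousLinearMap.proj (R := ℝ) (φ := fun _ : Fin n => ℝ) a
  have hL : ‖L‖ ≤ 1 := by
    refine ContinuousLinearMap.opNorm_le_bound _ zero_le_one fun v => ?_
    rw [one_mul]
    exact norm_le_pi_norm v a
  have h2 : (fun x => f x a) = L ∘ f := rfl
  rw [h2]
  refine (ContinuousLinearMap.norm_iteratedFDeriv_comp_left L hf.contDiffAt
    (by exact_mod_cast le_top)).trans ?_
  calc ‖L‖ * ‖iteratedFDeriv ℝ l f x‖ ≤ 1 * ‖iteratedFDeriv ℝ l f x‖ :=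
        mul_le_mul_of_nonneg_right hL (norm_nonneg _)
    _ ≤ δ := by rw [one_mul]; exact h l hl x

/-- **Row PHI.** -/
theorem rowPHI : BY.RowPHI := by
  intro n w₁ hw₁ hcs hcl₁ k ε hε
  have h1 : ∀ x, ‖fderiv ℝ w₁ x‖ ≤ 1 / 2 := fun x => by
    rw [← norm_iteratedFDeriv_one]
    exact (hcl₁ 1 le_rfl x).trans (by norm_num)
  set K₁ : V n → V n := ⇑(hom hw₁ h1).symm with hK₁
  have sK₁ : ContDiff ℝ ∞ K₁ := hom_symm_smooth hw₁ h1
  have l₁ : ∀ x, K₁ (x + w₁ x) = x := fun x => by
    rw [← hom_apply hw₁ h1 x]; exact (hom hw₁ h1).symm_apply_apply x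
  have r₁ : ∀ y, K₁ y + w₁ (K₁ y) = y := fun y => by
    rw [← hom_apply hw₁ h1 ((hom hw₁ h1).symm y)]; exact (hom hw₁ h1).apply_symm_apply y
  obtain ⟨C, ε₀, hC, hε₀, hD⟩ := rowDIF n 0
  set A : Set (V n) := Metric.cthickening 1 (tsupport w₁) with hA
  have hAc : IsCompact A := IsCompact.cthickening hcs
  have hw0 : ∀ x, x ∉ tsupport w₁ → w₁ x = 0 := fun x hx => image_eq_zero_of_notMem_tsupport hx
  have hG : ∀ a : Fin n, GG A (fun p : V n × (Fin n → ℝ) =>
      K₁ (p.1 + w₁ p.1 + p.2) a - p.1 a - p.2 a) := by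
    intro a
    refine ⟨?_, fun x => ?_, fun x hx v hv => ?_⟩
    · have e1 : ContDiff ℝ ∞ fun p : V n × (Fin n → ℝ) => K₁ (p.1 + w₁ p.1 + p.2) :=
        sK₁.comp ((contDiff_fst.add (hw₁.comp contDiff_fst)).add contDiff_snd)
      exact ((contDiff_pi.1 e1 a).sub ((contDiff_apply ℝ ℝ a).comp contDiff_fst)).sub
        ((contDiff_apply ℝ ℝ a).comp contDiff_snd)
    · show K₁ (x + w₁ x + 0) a - x a - (0 : V n) a = 0
      rw [add_zero, l₁, Pi.zero_apply]
      ring
    · have hx1 : x ∉ tsupport w₁ := fun h => hx (Metric.self_subset_cthickening _ h)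
      have hx2 : x + v ∉ tsupport w₁ := fun h => hx (Metric.mem_cthickening_of_dist_le x (x + v) 1 _
        h (by rw [dist_self_add_right]; exact hv.le))
      have h2 := l₁ (x + v)
      rw [hw0 _ hx2, add_zero] at h2
      show K₁ (x + w₁ x + v) a - x a - v a = 0
      rw [hw0 _ hx1, add_zero, h2, Pi.add_apply]
      ring
  set ε' : ℝ := min ε ε₀ with hε'
  have hε'p : 0 < ε' := lt_min hε hε₀
  have hS := fun a : Fin n => smallA (k + 1) hAc (hG a) (half_pos hε'p)
  choose d hd hS using hS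
  obtain ⟨δ, hδ, hδd⟩ := H72.exists_pos_le d hd
  refine ⟨min δ (ε' / 2), lt_min hδ (half_pos hε'p), fun Ω w₂ hw₂ hoff hcl => ?_⟩
  set u : V n → V n := fun x => w₂ x - w₁ x with hu
  have su : ContDiff ℝ ∞ u := hw₂.sub hw₁
  set w : V n → V n := fun x => K₁ (x + w₂ x) - x with hw
  have sw : ContDiff ℝ ∞ w := (sK₁.comp (contDiff_id.add hw₂)).sub contDiff_id
  have hwa : ∀ a x, w x a = (fun p : V n × (Fin n → ℝ) =>
      K₁ (p.1 + w₁ p.1 + p.2) a - p.1 a - p.2 a) (x, u x) + u x a := by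
    intro a x
    have e : x + w₁ x + u x = x + w₂ x := by
      show x + w₁ x + (w₂ x - w₁ x) = x + w₂ x
      rw [add_assoc, add_sub_cancel]
    show K₁ (x + w₂ x) a - x a = K₁ (x + w₁ x + u x) a - x a - u x a + u x a
    rw [e]
    ring
  have hwcl : Cl (k + 1) ε' w := by
    intro l hl x
    refine H72.iter_pi_le sw l x hε'p.le fun a => ?_
    have c1 := hS a u su fun b => fun l hl x => (cl_comp_apply su hcl b l hl x).trans
      ((min_le_left _ _).trans (hδd a))
    have c2 : Cl (k + 1) (ε' / 2) (fun x => u x a) := fun l hl x =>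
      (cl_comp_apply su hcl a l hl x).trans (min_le_right _ _)
    have s1 := (hG a).sm.comp (contDiff_id.prodMk su)
    have c3 := cl_add s1 (contDiff_pi.1 su a) c1 c2
    rw [add_halves] at c3
    have e : (fun y => w y a) = fun x => (fun p : V n × (Fin n → ℝ) =>
      K₁ (p.1 + w₁ p.1 + p.2) a - p.1 a - p.2 a) (x, u x) + u x a := funext (hwa a)
    rw [e]
    exact c3 l hl x
  obtain ⟨K, D, -⟩ := hD Ω w sw (fun x hx => by
    show K₁ (x + w₂ x) - x = 0
    rw [hoff x hx, l₁, sub_self]) (fun l hl x => (hwcl l (by omega) x).trans (min_le_right _ _))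
  refine ⟨w, K, D, fun l hl x => (hwcl l (by omega) x).trans (min_le_left _ _), fun x => ?_⟩
  have e : x + w x = K₁ (x + w₂ x) := by
    show x + (K₁ (x + w₂ x) - x) = _
    abel
  rw [e, r₁]

theorem bounded_smooth {f : V n → ℝ} (hf : ContDiff ℝ ∞ f) (hc : HasCompactSupport f) (k : ℕ) :
    ∃ B : ℝ, 0 ≤ B ∧ Cl k B f := by
  have h1 : ∀ l : ℕ, ∃ C : ℝ, ∀ x, ‖iteratedFDeriv ℝ l f x‖ ≤ C := fun l =>
    (hf.continuous_iteratedFDeriv (by exact_mod_cast le_top)).bounded_above_of_compact_support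
      (hc.iteratedFDeriv l)
  choose C hC using h1
  refine ⟨∑ i ∈ Finset.range (k + 1), |C i|, by positivity, fun l hl x => ?_⟩
  refine (hC l x).trans ((le_abs_self _).trans ?_)
  exact Finset.single_le_sum (f := fun i => |C i|) (fun _ _ => abs_nonneg _)
    (Finset.mem_range.2 (by omega))

/-- **Row NORM.** -/
theorem rowNORM : BY.RowNORM := by
  intro n σ hσ hσ1 k ε hε
  obtain ⟨C, ε₀, hC, hε₀, hD⟩ := rowDIF n k
  have hcs : HasCompactSupport (fun x => σ x - 1) := by
    refine HasCompactSupport.of_support_subset_isCompact H129.isCompact_core ?_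
    intro x hx
    by_contra h
    exact hx (by simp [hσ1 x h])
  have sσ : ContDiff ℝ ∞ (fun x => σ x - 1) := hσ.1.sub contDiff_const
  obtain ⟨B, hB0, hB⟩ := bounded_smooth sσ hcs k
  set M : ℝ := C + 2 ^ k * (C * B) * C + 1 with hM
  have hMp : 0 < M := by positivity
  set ε1 : ℝ := ε / (2 * M) with hε1
  have hε1p : 0 < ε1 := by positivity
  obtain ⟨δ1, hδ1, hN⟩ := H72.norm1 n k ε1 hε1p
  -- the composition difference
  set A : Set (V n) := Metric.cthickening 1 (core n) with hA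
  have hAc : IsCompact A := IsCompact.cthickening H129.isCompact_core
  have hG : GG A (fun p : V n × (Fin n → ℝ) => σ (p.1 + p.2) - σ p.1) := by
    refine ⟨(hσ.1.comp (contDiff_fst.add contDiff_snd)).sub (hσ.1.comp contDiff_fst),
      fun x => ?_, fun x hx v hv => ?_⟩
    · show σ (x + 0) - σ x = 0
      rw [add_zero, sub_self]
    · have hx1 : x ∉ core n := fun h => hx (Metric.self_subset_cthickening _ h)
      have hx2 : x + v ∉ core n := fun h => hx (Metric.mem_cthickening_of_dist_le x (x + v) 1 _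
        h (by rw [dist_self_add_right]; exact hv.le))
      show σ (x + v) - σ x = 0
      rw [hσ1 _ hx1, hσ1 _ hx2, sub_self]
  obtain ⟨δ3, hδ3, hS⟩ := smallA k hAc hG (ε := ε / (2 * (C + 1))) (by positivity)
  refine ⟨min (min δ1 ε₀) δ3, by positivity, fun s w K hs D hcl hwcl i j => ?_⟩
  have e1 : min (min δ1 ε₀) δ3 ≤ δ1 := (min_le_left _ _).trans (min_le_left _ _)
  have e2 : min (min δ1 ε₀) δ3 ≤ ε₀ := (min_le_left _ _).trans (min_le_right _ _)
  have e3 : min (min δ1 ε₀) δ3 ≤ δ3 := min_le_right _ _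
  obtain ⟨K', D', hcomp'⟩ := hD univ w D.sw (fun x hx => absurd (mem_univ x) hx)
    (fun l hl x => (hwcl l hl x).trans e2)
  have hKK : K' = K := by
    funext y
    have h1 := D.l (K' y)
    rw [D'.r] at h1
    exact h1.symm
  rw [hKK] at hcomp'
  have hcomp : ∀ (f : V n → ℝ), ContDiff ℝ ∞ f → ∀ δ, Cl k δ f → Cl k (C * δ) (fun y => f (K y)) :=
    hcomp'
  -- the three terms
  set s' : MF n := fun x => 1 + (s x - sc σ x) with hs'
  have hs'm : SmM s' := fun i j => contDiff_const.add ((hs i j).sub (smM_sc442 hσ.1 i j))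
  have t1 := hN univ s' w K C hs'm D hcomp (fun i j => by
    have e : (fun x => s' x i j - (1 : Matrix (Fin n) (Fin n) ℝ) i j) =
        fun x => s x i j - sc σ x i j := by
      funext x
      show (1 : Matrix (Fin n) (Fin n) ℝ) i j + (s x i j - sc σ x i j) - _ = _
      ring
    rw [e]
    exact fun l hl x => (hcl i j l hl x).trans e1) (fun l hl x => (hwcl l hl x).trans e1) i j
  have h1m : SmM (fun _ : V n => (1 : Matrix (Fin n) (Fin n) ℝ)) := fun i j => contDiff_const
  have t2 := hN univ (fun _ => 1) w K C h1m D hcomp (fun i j => by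
    have e : (fun _ : V n => (1 : Matrix (Fin n) (Fin n) ℝ) i j -
        (1 : Matrix (Fin n) (Fin n) ℝ) i j) = fun _ => 0 := by
      funext x
      ring
    rw [e]
    intro l hl x
    have : iteratedFDeriv ℝ l (fun _ : V n => (0 : ℝ)) x = 0 := by
      rw [iteratedFDeriv_fun_zero]; rfl
    rw [this, norm_zero]
    exact hδ1.le) (fun l hl x => (hwcl l hl x).trans e1) i j
  have t2' := cl_mul (sσ.comp D.sK) ((H158.smM_psh D h1m i j).sub contDiff_const)
    (hcomp _ sσ B hB) t2
  have t3 := hS w D.sw fun a => cl_comp_apply D.sw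
    (fun l hl x => (hwcl l (by omega) x).trans e3) a
  have s3 : ContDiff ℝ ∞ fun x => (fun p : V n × (Fin n → ℝ) => σ (p.1 + p.2) - σ p.1) (x, w x) :=
    hG.sm.comp (contDiff_id.prodMk D.sw)
  have t3' := hcomp _ s3 _ t3
  have t3'' : Cl k (C * (ε / (2 * (C + 1)))) (fun y => (σ (K y) - σ y) *
      (1 : Matrix (Fin n) (Fin n) ℝ) i j) := by
    intro l hl x
    by_cases hij : i = j
    · subst hij
      have e : (fun y => (σ (K y) - σ y) * (1 : Matrix (Fin n) (Fin n) ℝ) i i) =
          -(fun y => (fun p : V n × (Fin n → ℝ) => σ (p.1 + p.2) - σ p.1) (K y, w (K y))) := by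
        funext y
        show (σ (K y) - σ y) * (1 : Matrix (Fin n) (Fin n) ℝ) i i = -(σ (K y + w (K y)) - σ (K y))
        rw [D.r y, Matrix.one_apply_eq]
        ring
      rw [e, iteratedFDeriv_neg_apply, norm_neg]
      exact t3' l hl x
    · have e : (fun y => (σ (K y) - σ y) * (1 : Matrix (Fin n) (Fin n) ℝ) i j) = fun _ => 0 := by
        funext y
        rw [Matrix.one_apply_ne hij, mul_zero]
      have : iteratedFDeriv ℝ l (fun _ : V n => (0 : ℝ)) x = 0 := by
        rw [iteratedFDeriv_fun_zero]; rfl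
      rw [e, this, norm_zero]
      positivity
  have s1 : ContDiff ℝ ∞ fun x => psh s' w K x i j - (1 : Matrix (Fin n) (Fin n) ℝ) i j :=
    (H158.smM_psh D hs'm i j).sub contDiff_const
  have s2 : ContDiff ℝ ∞ fun x => (σ (K x) - 1) *
      (psh (fun _ => 1) w K x i j - (1 : Matrix (Fin n) (Fin n) ℝ) i j) :=
    (sσ.comp D.sK).mul ((H158.smM_psh D h1m i j).sub contDiff_const)
  have s3' : ContDiff ℝ ∞ fun y => (σ (K y) - σ y) * (1 : Matrix (Fin n) (Fin n) ℝ) i j :=
    ((hσ.1.comp D.sK).sub hσ.1).mul contDiff_const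
  have t := cl_add (s1.add s2) s3' (cl_add s1 s2 t1 t2') t3''
  have e : (fun x => psh s w K x i j - sc σ x i j) = fun x =>
      (psh s' w K x i j - (1 : Matrix (Fin n) (Fin n) ℝ) i j) + (σ (K x) - 1) *
      (psh (fun _ => 1) w K x i j - (1 : Matrix (Fin n) (Fin n) ℝ) i j) +
      (σ (K x) - σ x) * (1 : Matrix (Fin n) (Fin n) ℝ) i j := by
    funext x
    have h1 : s (K x) = s' (K x) + (σ (K x) - 1) • (1 : Matrix (Fin n) (Fin n) ℝ) := by
      show s (K x) = 1 + (s (K x) - σ (K x) • (1 : Matrix (Fin n) (Fin n) ℝ)) + _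
      rw [sub_smul, one_smul]
      abel
    have h2 : psh s w K x = psh s' w K x + (σ (K x) - 1) • psh (fun _ => 1) w K x := by
      unfold psh
      rw [h1, Matrix.mul_add, Matrix.add_mul, smul_add, Matrix.mul_smul, Matrix.smul_mul,
        smul_comm]
    have h3 : sc σ x i j = σ x * (1 : Matrix (Fin n) (Fin n) ℝ) i j := rfl
    rw [h2, h3]
    show psh s' w K x i j + (σ (K x) - 1) * psh (fun _ => 1) w K x i j - _ = _
    ring
  rw [e]
  refine fun l hl x => (t l hl x).trans ?_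
  have g1 : C * ε1 + 2 ^ k * (C * B) * (C * ε1) = (C + 2 ^ k * (C * B) * C) * ε1 := by ring
  have g2 : (C + 2 ^ k * (C * B) * C) * ε1 ≤ ε / 2 := by
    calc (C + 2 ^ k * (C * B) * C) * ε1 ≤ M * ε1 :=
          mul_le_mul_of_nonneg_right (by rw [hM]; linarith) hε1p.le
      _ = ε / 2 := by rw [hε1]; field_simp
  have g3 : C * (ε / (2 * (C + 1))) ≤ ε / 2 := by
    calc C * (ε / (2 * (C + 1))) ≤ (C + 1) * (ε / (2 * (C + 1))) :=
          mul_le_mul_of_nonneg_right (by linarith) (by positivity)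
      _ = ε / 2 := by field_simp
  linarith

end Vale.Agent.P088.LR.BY
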