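import Vale.Agent.P088.H833.RecC
import Vale.Agent.P088.H501.BorelRow
import Vale.Agent.P088.H72.X.Small2

/-!
# P088, theorem B + C, row BOR: formal harmonic coordinates at the boundary near an arbitrary base
-/

open MeasureTheory Set Filter Topology
open scoped ContDiff Matrix

noncomputable section

namespace Vale.Agent.P088.LR.BY

open Vale.Agent.P088.LR Vale.Agent.P088.LR.B Vale.Agent.P088.LR.CF Vale.Agent.P088.H833
  Vale.Agent.P088.H833.RC Vale.Agent.P088.LR.H501B

variable {n : ℕ}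

theorem cl_z {k : ℕ} {ε : ℝ} (hε : 0 ≤ ε) : Cl k ε (fun _ : V n => (0 : ℝ)) := by
  intro l hl x
  have : iteratedFDeriv ℝ l (fun _ : V n => (0 : ℝ)) x = 0 :=
    congrFun (iteratedFDeriv_fun_zero (𝕜 := ℝ) (E := V n) (F := ℝ) (n := l)) x
  rw [this, norm_zero]
  exact hε

/-- Borel sum of the formal series. -/
theorem corr {ρ : V n → ℝ} (hD : Dom ρ) {s : MF n} (hs : SmM s) {c : ℕ → V n → ℝ}
    (hc : ∀ i, ContDiff ℝ ∞ (c i)) (hc0 : ∀ x, c 0 x = 0) {f g : V n → ℝ}
    (hc1 : ∀ x, ρ x = 0 → gr s ρ ρ x * c 1 x = f x)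
    (hE : ∀ M : ℕ, ∃ r > 0, ∃ E, ContDiff ℝ ∞ E ∧ ∀ x, |ρ x| < r →
      g x + dr s (fun y => ∑ i ∈ Finset.range (M + 2), ρ y ^ i * c i y) x = ρ x ^ M * E x)
    {u : V n → ℝ} (hud : ∀ M : ℕ, ∃ h : V n → ℝ, ContDiff ℝ ∞ h ∧
        ∀ x, u x = (∑ m ∈ Finset.range M, ρ x ^ m * c m x) + ρ x ^ M * h x) :
    (∀ x, ρ x = 0 → u x = 0) ∧ (∀ x, ρ x = 0 → gr s u ρ x = f x) ∧
    ∀ m : ℕ, ∃ r > 0, ∃ E, ContDiff ℝ ∞ E ∧ ∀ x, |ρ x| < r →
      g x + dr s u x = ρ x ^ m * E x := by
  have hρ := hD.sm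
  refine ⟨fun x hx => ?_, fun x hx => ?_, fun m => ?_⟩
  · obtain ⟨h, _, h1⟩ := hud 1
    rw [h1 x, Finset.sum_range_one, hc0 x, hx]
    simp
  · obtain ⟨h, hh, h1⟩ := hud 2
    have e : u = fun y => ρ y * c 1 y + ρ y * (ρ y * h y) := by
      funext y
      rw [h1 y, Finset.sum_range_succ, Finset.sum_range_one, hc0 y]
      ring
    have e2 : ∀ i, pd i u x = c 1 x * pd i ρ x := by
      intro i
      rw [e, pd_add' (hρ.mul (hc 1)) (hρ.mul (hρ.mul hh)), pd_mul' hρ (hc 1),
        pd_mul' hρ (hρ.mul hh), hx]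
      ring
    rw [← hc1 x hx, gr_eq, gr_eq, Finset.sum_mul]
    refine Finset.sum_congr rfl fun i _ => ?_
    rw [e2 i]
    ring
  · obtain ⟨h, hh, h1⟩ := hud (m + 2)
    obtain ⟨F, hF, hF1⟩ := dr_rest hs hρ hh m
    obtain ⟨r, hr, E, hEs, hE1⟩ := hE m
    refine ⟨r, hr, fun x => E x + F x, hEs.add hF, fun x hx => ?_⟩
    have e : u = fun y => (∑ i ∈ Finset.range (m + 2), ρ y ^ i * c i y) + ρ y ^ (m + 2) * h y :=
      funext h1
    rw [e, dr_add hs (ContDiff.sum fun i _ => (hρ.pow i).mul (hc i)) ((hρ.pow _).mul hh), hF1 x,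
      ← add_assoc, hE1 x hx]
    ring

theorem dr_cmul {s : MF n} (hs : SmM s) (b : ℝ) {u : V n → ℝ} (hu : ContDiff ℝ ∞ u) (x : V n) :
    dr s (fun y => b * u y) x = b * dr s u x := by
  unfold dr
  rw [Finset.mul_sum]
  refine Finset.sum_congr rfl fun i _ => ?_
  have hz : ∀ y : V n, ∀ j, pd j (fun _ : V n => b) y = 0 := fun y j => by
    unfold pd
    rw [fderiv_fun_const]
    rfl
  have h : (fun y => ∑ j, s y i j * pd j (fun y => b * u y) y) =
      fun y => b * ∑ j, s y i j * pd j u y := by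
    funext y
    rw [Finset.mul_sum]
    refine Finset.sum_congr rfl fun j _ => ?_
    rw [pd_mul' contDiff_const hu, hz]
    ring
  rw [h, pd_mul' contDiff_const (ContDiff.sum fun j _ => (hs i j).mul (cd_pd hu j)), hz]
  ring

theorem gr_cmul (s : MF n) (b : ℝ) {u : V n → ℝ} (hu : ContDiff ℝ ∞ u) (v : V n → ℝ) (x : V n) :
    gr s (fun y => b * u y) v x = b * gr s u v x := by
  rw [gr_eq, gr_eq, Finset.mul_sum]
  refine Finset.sum_congr rfl fun i _ => ?_
  have hz : pd i (fun _ : V n => b) x = 0 := by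
    unfold pd
    rw [fderiv_fun_const]
    rfl
  rw [pd_mul' contDiff_const hu, hz]
  ring

theorem gr_addl (s : MF n) {u v : V n → ℝ} (hu : ContDiff ℝ ∞ u) (hv : ContDiff ℝ ∞ v)
    (w : V n → ℝ) (x : V n) : gr s (fun y => u y + v y) w x = gr s u w x + gr s v w x := by
  rw [gr_eq, gr_eq, gr_eq, ← Finset.sum_add_distrib]
  refine Finset.sum_congr rfl fun i _ => ?_
  rw [pd_add' hu hv]
  ring

theorem ev_eq {ρ : V n → ℝ} (hD : Dom ρ) {u u' : V n → ℝ} (h : ∀ x ∈ core n, u' x = u x) {x : V n}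
    (hx : |ρ x| < 1) : u' =ᶠ[𝓝 x] u := by
  have h1 : ∀ᶠ y in 𝓝 x, |ρ y| < 1 :=
    (hD.sm.continuous.abs.continuousAt).eventually (gt_mem_nhds hx)
  filter_upwards [h1] with y hy
  refine h y ?_
  by_contra hc
  rw [hD.off y hc] at hy
  norm_num at hy

theorem pd_ev {u u' : V n → ℝ} {x : V n} (h : u' =ᶠ[𝓝 x] u) (i : Fin n) : pd i u' x = pd i u x := by
  unfold pd
  rw [h.fderiv_eq]

theorem gr_ev (s : MF n) {u u' : V n → ℝ} {x : V n} (h : u' =ᶠ[𝓝 x] u) (v : V n → ℝ) :
    gr s u' v x = gr s u v x := by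
  rw [gr_eq, gr_eq]
  exact Finset.sum_congr rfl fun i _ => by rw [pd_ev h]

theorem dr_ev (s : MF n) {u u' : V n → ℝ} {x : V n} (h : u' =ᶠ[𝓝 x] u) :
    dr s u' x = dr s u x := by
  unfold dr
  refine Finset.sum_congr rfl fun i _ => pd_ev ?_ i
  filter_upwards [h.eventuallyEq_nhds] with y hy
  exact Finset.sum_congr rfl fun j _ => by rw [pd_ev hy]

theorem gr_sc (σ : V n → ℝ) (u v : V n → ℝ) (x : V n) :
    gr (sc σ) u v x = σ x * ∑ i, pd i u x * pd i v x := by
  unfold gr
  rw [Finset.mul_sum]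
  refine Finset.sum_congr rfl fun i _ => ?_
  rw [Finset.sum_eq_single i]
  · simp [sc]; ring
  · intro j _ hj
    simp [sc, Matrix.one_apply_ne (Ne.symm hj)]
  · intro h; exact absurd (Finset.mem_univ _) h

theorem dr_sc_coord {σ : V n → ℝ} (a : Fin n) (x : V n) :
    dr (sc σ) (fun y => y a) x = pd a σ x := by
  unfold dr
  have h : ∀ i, (fun y => ∑ j, sc σ y i j * pd j (fun y : V n => y a) y) =
      fun y => σ y * dl i a := by
    intro i
    funext y
    rw [Finset.sum_eq_single a]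
    · rw [pd_coord, dl, Matrix.one_apply_eq, mul_one]
      rfl
    · intro j _ hj
      rw [pd_coord, dl, Matrix.one_apply_ne hj, mul_zero]
    · intro h; exact absurd (Finset.mem_univ _) h
  simp only [h]
  rw [Finset.sum_eq_single a]
  · congr 1
    funext y
    rw [dl, Matrix.one_apply_eq, mul_one]
  · intro i _ hi
    have h2 : (fun y => σ y * dl i a) = fun _ => 0 := by
      funext y
      rw [dl, Matrix.one_apply_ne hi, mul_zero]
    rw [h2]
    unfold pd
    rw [fderiv_fun_const]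
    rfl
  · intro h; exact absurd (Finset.mem_univ _) h

/-- The coordinates of the base. -/
theorem base_coord {ρ : V n → ℝ} (hD : Dom ρ) {σ : V n → ℝ} (hσ : SmP σ)
    (hoff : ∀ x ∉ core n, σ x = 1) (a : Fin n) : ∃ v : V n → ℝ, ContDiff ℝ ∞ v ∧
      HasCompactSupport v ∧ Cl 1 (1 / 4) v ∧ (∀ x, ρ x = 0 → v x = 0) ∧
      (∀ x, ρ x = 0 → gr (sc σ) v ρ x = 0) ∧
      ∀ m : ℕ, ∃ r > 0, ∃ E : V n → ℝ, ContDiff ℝ ∞ E ∧ ∀ x, |ρ x| < r →
        dr (sc σ) (fun y => y a + v y) x = ρ x ^ m * E x := by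
  have hsc : SmM (sc σ) := fun i j => cd_sc hσ.1 i j
  have hsy : ∀ x, (sc σ x).IsSymm := fun x => by
    unfold sc
    rw [Matrix.IsSymm, Matrix.transpose_smul, Matrix.transpose_one]
  have hya : ContDiff ℝ ∞ (fun y : V n => y a) := contDiff_apply ℝ ℝ a
  obtain ⟨K, δ', hδ', hR⟩ := recC ρ hD σ hσ hoff 1 1 one_pos
  -- the source
  have hcs : HasCompactSupport (fun x => σ x - 1) := by
    refine HasCompactSupport.of_support_subset_isCompact core_cpt ?_
    intro x hx
    by_contra h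
    exact hx (by simp [hoff x h])
  have hgs : ContDiff ℝ ∞ (pd a σ) := cd_pd hσ.1 a
  have hgc : HasCompactSupport (pd a σ) := by
    have h1 : pd a σ = fun x => fderiv ℝ (fun x => σ x - 1) x (Pi.single a 1) := by
      funext x
      unfold pd
      rw [fderiv_sub_const]
    rw [h1]
    exact hcs.fderiv_apply ℝ (Pi.single a 1)
  obtain ⟨Bg, hBg0, hBg⟩ := bounded_smooth hgs hgc K
  set lam : ℝ := δ' / (Bg + 1) with hlam
  have hlam0 : 0 < lam := by positivity
  have hgl : Cl K δ' (fun x => lam * pd a σ x) := by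
    intro l hl x
    have e : (fun x => lam * pd a σ x) = lam • pd a σ := rfl
    rw [e, iteratedFDeriv_const_smul_apply (hgs.of_le (by exact_mod_cast le_top)).contDiffAt,
      norm_smul, Real.norm_of_nonneg hlam0.le]
    calc lam * ‖iteratedFDeriv ℝ l (pd a σ) x‖ ≤ lam * (Bg + 1) :=
          mul_le_mul_of_nonneg_left ((hBg l hl x).trans (by linarith)) hlam0.le
      _ = δ' := by rw [hlam]; field_simp
  obtain ⟨c, hc, -, hc0, hc1, hc1', hE⟩ := hR (sc σ) hsc hsy (fun i j => by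
    simp only [sub_self]
    exact cl_z hδ'.le) (fun _ => 0) (fun x => lam * pd a σ x) contDiff_const
    (contDiff_const.mul hgs) (cl_z hδ'.le) hgl
  have hc1 : ∀ x, c 1 x = 0 := hc1 fun _ => rfl
  -- the cut-off
  let χ : ContDiffBump (ctr n) := ⟨1 / 4, 1 / 2, by norm_num, by norm_num⟩
  have hχ1 : ∀ x ∈ core n, χ x = 1 := by
    intro x hx
    refine χ.one_of_mem_closedBall ?_
    rw [Metric.mem_closedBall]
    refine (dist_pi_le_iff (by norm_num)).2 fun j => ?_
    have := hx j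
    rw [Real.dist_eq, abs_le]
    simp only [ctr]
    constructor <;> linarith [this.1, this.2]
  have hχs : ContDiff ℝ ∞ (fun x => χ x) := χ.contDiff
  have hχc : HasCompactSupport (fun x => χ x) := χ.hasCompactSupport
  obtain ⟨Bx, hBx0, hBx⟩ := bounded_smooth hχs hχc 1
  obtain ⟨δB, hδB, hB⟩ := borel hD 1 (ε := lam / (8 * (Bx + 1))) (by positivity)
  obtain ⟨u, hu, hucl, hud⟩ := hB c hc fun m hm => by
    have h1 : c m = fun _ => 0 := by
      rcases Nat.le_one_iff_eq_zero_or_eq_one.1 hm with h | h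
      · rw [h]; exact funext hc0
      · rw [h]; exact funext hc1
    rw [h1]
    exact cl_z hδB.le
  obtain ⟨u0, u1, u2⟩ := corr hD hsc hc hc0 hc1' hE hud
  have hχu : ContDiff ℝ ∞ (fun x => χ x * u x) := hχs.mul hu
  have hev : ∀ x, |ρ x| < 1 → (fun x => χ x * u x) =ᶠ[𝓝 x] u := fun x hx =>
    ev_eq hD (fun y hy => by rw [hχ1 y hy, one_mul]) hx
  refine ⟨fun x => lam⁻¹ * (χ x * u x), contDiff_const.mul hχu, ?_, ?_, fun x hx => ?_,
    fun x hx => ?_, fun m => ?_⟩
  · exact (hχc.mul_right (f' := u)).mul_left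
  · intro l hl x
    have e : (fun x => lam⁻¹ * (χ x * u x)) = lam⁻¹ • fun x => χ x * u x := rfl
    rw [e, iteratedFDeriv_const_smul_apply (hχu.of_le (by exact_mod_cast le_top)).contDiffAt,
      norm_smul, Real.norm_of_nonneg (inv_nonneg.2 hlam0.le)]
    have h1 := H833.cl_mul hχs hu hBx hucl l hl x
    calc lam⁻¹ * ‖iteratedFDeriv ℝ l (fun x => χ x * u x) x‖
        ≤ lam⁻¹ * (2 ^ 1 * Bx * (lam / (8 * (Bx + 1)))) :=
          mul_le_mul_of_nonneg_left h1 (inv_nonneg.2 hlam0.le)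
      _ ≤ lam⁻¹ * (2 ^ 1 * (Bx + 1) * (lam / (8 * (Bx + 1)))) := by
          have : Bx ≤ Bx + 1 := by linarith
          gcongr
      _ = 1 / 4 := by field_simp; norm_num
  · show lam⁻¹ * (χ x * u x) = 0
    rw [u0 x hx]
    ring
  · have hx1 : |ρ x| < 1 := by rw [hx, abs_zero]; norm_num
    rw [gr_cmul _ _ hχu, gr_ev _ (hev x hx1), u1 x hx, mul_zero]
  · obtain ⟨r, hr, E, hEs, hE1⟩ := u2 m
    refine ⟨min r 1, lt_min hr one_pos, fun x => lam⁻¹ * E x, contDiff_const.mul hEs,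
      fun x hx => ?_⟩
    have h1 := hE1 x (hx.trans_le (min_le_left _ _))
    rw [dr_add hsc hya (contDiff_const.mul hχu), dr_cmul hsc _ hχu,
      dr_ev _ (hev x (hx.trans_le (min_le_right _ _))), dr_sc_coord]
    have h2 : dr (sc σ) u x = ρ x ^ m * E x - lam * pd a σ x := by linarith
    rw [h2]
    field_simp
    ring

/-- **Row BOR.** -/
theorem rowBOR : BY.RowBOR := by
  intro n ρ hD σ hσ hoff
  have hρ := hD.sm
  have hsc : SmM (sc σ) := fun i j => cd_sc hσ.1 i j
  have hya : ∀ a, ContDiff ℝ ∞ (fun y : V n => y a) := fun a => contDiff_apply ℝ ℝ a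
  choose v hv hvc hvcl hv0 hvn hvd using fun a => base_coord hD hσ hoff a
  have hX : ∀ a, ContDiff ℝ ∞ (fun y : V n => y a + v a y) := fun a => (hya a).add (hv a)
  have hw₁ : ContDiff ℝ ∞ (fun x a => v a x : V n → V n) := contDiff_pi.2 hv
  have hgX : ∀ a x, ρ x = 0 → gr (sc σ) (fun y => y a + v a y) ρ x = σ x * pd a ρ x := by
    intro a x hx
    rw [gr_addl _ (hya a) (hv a), hvn a x hx, add_zero, gr_sc]
    congr 1
    rw [Finset.sum_eq_single a]
    · rw [pd_coord, dl, Matrix.one_apply_eq, one_mul]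
    · intro j _ hj
      rw [pd_coord, dl, Matrix.one_apply_ne hj, zero_mul]
    · intro h; exact absurd (Finset.mem_univ _) h
  refine ⟨fun x a => v a x, hw₁, ?_, fun l hl x =>
    H72.iter_pi_le hw₁ l x (by norm_num) fun a => hvcl a l hl x, fun x hx => ?_, hgX, hvd, ?_⟩
  · rw [hasCompactSupport_iff_eventuallyEq]
    have h1 : ∀ a, v a =ᶠ[coclosedCompact (V n)] 0 := fun a =>
      hasCompactSupport_iff_eventuallyEq.1 (hvc a)
    have h2 : ∀ᶠ x in coclosedCompact (V n), ∀ a, v a x = 0 := eventually_all.2 fun a => h1 a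
    filter_upwards [h2] with x hx
    funext a
    exact hx a
  · funext a
    exact hv0 a x hx
  intro k ε hε
  obtain ⟨δB, hδB, hB⟩ := borel hD k hε
  obtain ⟨Kr, δr, hδr, hR⟩ := recC ρ hD σ hσ hoff k δB hδB
  obtain ⟨hρB, -⟩ := setup hD hσ hoff
  -- bounded families
  have hXB : ∀ a i, Bo (Fq σ) (fun _ : Tr n => pd i (fun y => y a + v a y)) := by
    intro a i
    refine Bo.fix (c := dl i a) (cd_pd (hX a) i) ?_
    have h1 : (fun x => pd i (fun y => y a + v a y) x - dl i a) =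
        fun x => fderiv ℝ (v a) x (Pi.single i 1) := by
      funext x
      rw [pd_add' (hya a) (hv a), pd_coord]
      unfold pd
      ring
    rw [h1]
    exact (hvc a).fderiv_apply ℝ (Pi.single i 1)
  let F : Fin n → Tr n → V n → ℝ := fun a t x =>
    ∑ i, ∑ j, (t.s x i j - sc σ x i j) * (-(pd i (fun y => y a + v a y) x) * pd j ρ x)
  let G : Fin n → Tr n → V n → ℝ := fun a t x =>
    ∑ i, pd i (fun y => ∑ j, (t.s y i j - sc σ y i j) * pd j (fun y => y a + v a y) y) x
  have hF : ∀ a, So (Fq σ) (F a) := fun a => So.sum _ fun i => So.sum _ fun j =>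
    (So.ent hσ.1 i j).mul' (by
      have h1 := (Bo.const (F₀ := Fq σ) (n := n) (-1)).mul (hXB a i)
      have h2 := h1.mul (hρB.pdd j)
      refine ⟨fun t => ?_, fun k => ?_⟩
      · exact ((cd_pd (hX a) i).neg).mul (cd_pd hρ j)
      · obtain ⟨C, hC⟩ := h2.bd k
        refine ⟨C, ?_⟩
        filter_upwards [hC] with t ht
        have e : (fun x => -(pd i (fun y => y a + v a y) x) * pd j ρ x) =
            fun x => -1 * pd i (fun y => y a + v a y) x * pd j ρ x := by
          funext x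
          ring
        show Cl k C (fun x => -(pd i (fun y => y a + v a y) x) * pd j ρ x)
        rw [e]
        exact ht)
  have hG : ∀ a, So (Fq σ) (G a) := fun a => So.sum _ fun i =>
    (So.sum _ fun j => (So.ent hσ.1 i j).mul' (hXB a j)).pdd i
  have hev : ∀ᶠ t in Fq σ, ∀ a, Cl Kr δr (F a t) ∧ Cl Kr δr (G a t) := by
    rw [eventually_all]
    intro a
    exact ((hF a).sml Kr δr hδr).and ((hG a).sml Kr δr hδr)
  obtain ⟨m, hm⟩ := evq_iff.1 hev
  refine ⟨max m Kr, min (1 / ((m : ℝ) + 1)) δr, lt_min (by positivity) hδr,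
    fun s hs hsy hscl => ?_⟩
  let t : Tr n := ⟨s, fun _ => 0, fun _ => 0, hs, contDiff_const, contDiff_const⟩
  have hFG := hm t ⟨fun i j => H442.cl_le442 (hscl i j) (le_max_left _ _) (min_le_left _ _),
    cl_z (by positivity), cl_z (by positivity)⟩
  have hcls : ∀ i j, Cl Kr δr (fun x => s x i j - sc σ x i j) := fun i j =>
    H442.cl_le442 (hscl i j) (le_max_right _ _) (min_le_right _ _)
  choose c hc hck hc0 _hc1 hc1' hE using fun a => hR s hs hsy hcls (F a t) (G a t) ((hF a).sm t)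
    ((hG a).sm t) (hFG a).1 (hFG a).2
  choose u hu hucl hud using fun a => hB (c a) (hc a) (hck a)
  have hcor := fun a => corr hD hs (hc a) (hc0 a) (hc1' a) (hE a) (hud a)
  have hua : ContDiff ℝ ∞ (fun x a => u a x : V n → V n) := contDiff_pi.2 hu
  have hsplit : ∀ a, (fun y : V n => y a + (v a y + u a y)) =
      fun y => (y a + v a y) + u a y := fun a => by
    funext y
    ring
  refine ⟨fun x a => v a x + u a x, contDiff_pi.2 fun a => (hv a).add (hu a), ?_, fun x hx => ?_,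
    fun a x hx => ?_, fun a m => ?_⟩
  · have e : (fun x => (fun a => v a x + u a x) - fun a => v a x : V n → V n) =
        fun x a => u a x := by
      funext x a
      show v a x + u a x - v a x = u a x
      ring
    rw [e]
    exact fun l hl x => H72.iter_pi_le hua l x hε.le fun a => hucl a l hl x
  · funext a
    show v a x + u a x = 0
    rw [hv0 a x hx, (hcor a).1 x hx, add_zero]
  · show gr s (fun y : V n => y a + (v a y + u a y)) ρ x = _
    rw [hsplit a, gr_addl _ (hX a) (hu a), (hcor a).2.1 x hx, ← hgX a x hx]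
    show (∑ i, ∑ j, s x i j * pd i (fun y => y a + v a y) x * pd j ρ x) +
      ∑ i, ∑ j, (s x i j - sc σ x i j) * (-(pd i (fun y => y a + v a y) x) * pd j ρ x) =
      ∑ i, ∑ j, sc σ x i j * pd i (fun y => y a + v a y) x * pd j ρ x
    rw [← Finset.sum_add_distrib]
    refine Finset.sum_congr rfl fun i _ => ?_
    rw [← Finset.sum_add_distrib]
    exact Finset.sum_congr rfl fun j _ => by ring
  · obtain ⟨r1, hr1, E1, hE1, h1⟩ := hvd a m
    obtain ⟨r2, hr2, E2, hE2, h2⟩ := (hcor a).2.2 m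
    refine ⟨min r1 r2, lt_min hr1 hr2, fun x => E1 x + E2 x, hE1.add hE2, fun x hx => ?_⟩
    show dr s (fun y : V n => y a + (v a y + u a y)) x = _
    rw [hsplit a, dr_add hs (hX a) (hu a)]
    have h3 : dr s (fun y => y a + v a y) x =
        dr (sc σ) (fun y => y a + v a y) x + G a t x := by
      show ∑ i, pd i (fun y => ∑ j, s y i j * pd j (fun y => y a + v a y) y) x =
        ∑ i, pd i (fun y => ∑ j, sc σ y i j * pd j (fun y => y a + v a y) y) x +
        ∑ i, pd i (fun y => ∑ j, (s y i j - sc σ y i j) * pd j (fun y => y a + v a y) y) x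
      rw [← Finset.sum_add_distrib]
      refine Finset.sum_congr rfl fun i _ => ?_
      rw [← pd_add' (ContDiff.sum fun j _ => (hsc i j).mul (cd_pd (hX a) j))
        (ContDiff.sum fun j _ => ((hs i j).sub (hsc i j)).mul (cd_pd (hX a) j))]
      congr 1
      funext y
      rw [← Finset.sum_add_distrib]
      exact Finset.sum_congr rfl fun j _ => by ring
    have h4 := h1 x (hx.trans_le (min_le_left _ _))
    have h5 := h2 x (hx.trans_le (min_le_right _ _))
    rw [h3, h4, add_assoc, h5]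
    ring

end Vale.Agent.P088.LR.BY
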