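import Vale.Agent.P088.H72.X.Fin
import Vale.Agent.P088.H72.X.Defs2
import Vale.Agent.P088.H397.Inj
import Vale.Agent.P088.H158.BMapE

/-!
# P088, theorem B + C: the assembly (row FIN)
-/

open MeasureTheory Set
open scoped ContDiff Matrix

noncomputable section

namespace Vale.Agent.P088.LR.BY

open Vale.Agent.P088.LR Vale.Agent.P088.LR.B Vale.Agent.P088.LR.CF Vale.Agent.P088.H639
  Vale.Agent.P088.LR.H72 Vale.Agent.P088.LR.BX

variable {n : ℕ}

/-- A positive smooth function which is `1` off the core has a positive lower bound. -/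
theorem exists_lower {σ : V n → ℝ} (hσ : SmP σ) (h1 : ∀ x ∉ core n, σ x = 1) :
    ∃ μ : ℝ, 0 < μ ∧ ∀ x, μ ≤ σ x := by
  obtain ⟨μ, hμ, h⟩ := H129.isCompact_core.exists_forall_le' (f := σ) (a := 0)
    hσ.1.continuous.continuousOn (fun x _ => hσ.2 x)
  refine ⟨min μ 1, lt_min hμ one_pos, fun x => ?_⟩
  by_cases hx : x ∈ core n
  · exact (min_le_left _ _).trans (h x hx)
  · rw [h1 x hx]
    exact min_le_right _ _

theorem det_ne {w : V n → V n} (hw : ContDiff ℝ ∞ w) (h : Cl 1 (1 / 2) w) (x : V n) :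
    (jm w x).det ≠ 0 := by
  intro h0
  obtain ⟨v, hv, hv0⟩ := Matrix.exists_mulVec_eq_zero_iff.2 h0
  apply hv
  funext i
  refine H397.inj_of_small hw h x v (fun a => ?_) i
  have h1 := congrFun hv0 a
  simp only [Matrix.mulVec, dotProduct, Pi.zero_apply] at h1
  rw [← h1]
  exact Finset.sum_congr rfl fun i _ => by rw [B.H158.pd_H hw]

/-- **The assembly.** -/
theorem finY (hT : RowTOPO) (hB : BY.RowBOR) (hP : BY.RowPHI) (hN : BY.RowNORM)
    (hM : BX.RowMAP) (hI : BY.RowINF) (hE : RowEXT) (hR : ∀ n : ℕ, 3 ≤ n → BY.RigC n) :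
    BY.RowFIN := by
  intro n hn ρ hρ hρb σ hσ hσ1
  obtain ⟨hO, hOc, hfr, hcl, hic, hde⟩ := hT ρ hρ
  have hOb : Om ρ ⊆ bal n := by
    intro x hx
    by_contra h
    have h1 : 0 < ρ x := hx
    rw [hρb x h] at h1
    linarith
  have hbd : Bornology.IsBounded (Om ρ) := H833.bounded_core.subset hOc
  have hσc : ∀ x ∉ core n, σ x = 1 := fun x hx => hσ1 x fun h => hx (bal_subset_core442 h)
  obtain ⟨μ, hμ, hμσ⟩ := exists_lower hσ hσc
  obtain ⟨kr, εr, hεr, hR⟩ := hR n hn σ hσ hσ1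
  obtain ⟨a₀, ha₀, hI⟩ := hI hn μ hμ
  obtain ⟨w₁, hw₁, hw₁c, hw₁cl, hw0₁, hwn₁, hwd₁, hB⟩ := hB ρ hρ σ hσ hσc
  set η : ℝ := min εr a₀ with hη
  have hηp : 0 < η := lt_min hεr ha₀
  obtain ⟨δN, hδN, hN⟩ := hN σ hσ hσc kr η hηp
  obtain ⟨δP, hδP, hP⟩ := hP w₁ hw₁ hw₁c hw₁cl (kr + 1) (min δN (1 / 2))
    (lt_min hδN (by norm_num))
  obtain ⟨Kb, δ2, hδ2, hB⟩ := hB (kr + 1 + 1) δP hδP
  refine ⟨max Kb kr, min δ2 δN, lt_min hδ2 hδN, fun s hs hsp hscl hSE => ?_⟩
  have hpsd : ∀ x, (s x).PosSemidef := fun x => (hsp x).posSemidef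
  have hsym : ∀ x, (s x).IsSymm := fun x => by
    have h : (s x)ᴴ = s x := (hsp x).1
    rwa [Matrix.conjTranspose_eq_transpose_of_trivial] at h
  have hscM : SmM (sc σ) := smM_sc442 hσ.1
  have hscS : ∀ x, (sc σ x).IsSymm := symm_sc442 σ
  have hscP : ∀ x, (sc σ x).PosSemidef := fun x => (posDef_sc442 hσ.2 x).posSemidef
  -- the two coordinate systems
  obtain ⟨w₂, hw₂, hwcl₂, hw0₂, hwn₂, hwd₂⟩ := hB s hs hsym fun i j =>
    H442.cl_le442 (hscl i j) (le_max_left _ _) (min_le_left _ _)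
  obtain ⟨w, K, D0, hwcl, hwe⟩ := hP {x | ρ x ≠ 0} w₂ hw₂
    (fun x hx => by
      have hx0 : ρ x = 0 := not_not.1 hx
      rw [hw0₁ x hx0, hw0₂ x hx0]) hwcl₂
  have D : Dif univ w K := dif_univ D0
  have hw0 : ∀ x, ρ x = 0 → w x = 0 := fun x hx => D0.z x fun h => h hx
  have hw1 : Cl 1 (1 / 2) w := fun l hl x => (hwcl l (by omega) x).trans (min_le_right _ _)
  obtain ⟨hside, hM⟩ := hM ρ hρ w K D hw0 hw1
  obtain ⟨ht, htp, htSE, htg⟩ := hM (sc σ) s hscM hs hpsd
  have htSE := htSE hSE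
  have htn : ∀ a x, ρ x = 0 → gr (psh s w K) (fun y => y a + w₁ y a) ρ x =
      gr (sc σ) (fun y => y a + w₁ y a) ρ x := fun a =>
    (htg w₁ w₂ hw₁ hw₂ hwe a).1 fun x hx => by rw [hwn₂ a x hx, hwn₁ a x hx]
  have htd : ∀ a (m : ℕ), ∃ r > 0, ∃ E : V n → ℝ, ContDiff ℝ ∞ E ∧ ∀ x, |ρ x| < r →
      dr (psh s w K) (fun y => y a + w₁ y a) x = ρ x ^ m * E x := fun a m =>
    (htg w₁ w₂ hw₁ hw₂ hwe a).2 m (hwd₂ a m)
  have hhcl := hN s w K hs D (fun i j => H442.cl_le442 (hscl i j) (le_max_right _ _)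
    (min_le_right _ _)) (cl_mono hwcl (min_le_left _ _))
  set t : MF n := psh s w K with htdef
  have hta : ∀ x ∈ Om ρ, ∀ i j, |t x i j - sc σ x i j| ≤ a₀ := by
    intro x _ i j
    have h := hhcl i j 0 (Nat.zero_le _) x
    rw [norm_iteratedFDeriv_zero, Real.norm_eq_abs] at h
    exact h.trans (min_le_right _ _)
  have hflat := hI ρ hρ σ hσ.1 hμσ t ht htp htSE hta w₁ hw₁
    (fun x _ => det_ne hw₁ (cl_mono hw₁cl (by norm_num)) x) htn htd hwd₁
  -- the extension by `σ · 1`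
  let s' : MF n := fun x => if 0 < ρ x then t x else sc σ x
  have he : ∀ i j, (fun x => s' x i j - sc σ x i j) =
      fun x => if 0 < ρ x then (t x i j - sc σ x i j) else 0 := by
    intro i j
    funext x
    by_cases hx : 0 < ρ x
    · simp only [s', hx, if_true]
    · simp only [s', hx, if_false]
      exact sub_self _
  have hext : ∀ i j, ContDiff ℝ ∞ (fun x => s' x i j - sc σ x i j) ∧
      Cl kr η (fun x => s' x i j - sc σ x i j) := by
    intro i j
    have h := hE ρ hρ (fun x => t x i j - sc σ x i j) ((ht i j).sub (hscM i j)) fun m => by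
      obtain ⟨b, hb, hb'⟩ := hflat m
      exact ⟨b i j, hb i j, fun x => hb' x i j⟩
    rw [he i j]
    exact ⟨h.1, h.2 kr _ (hhcl i j)⟩
  have hs'sm : SmM s' := by
    intro i j
    have h := (hext i j).1.add (hscM i j)
    have h2 : (fun x => s' x i j - sc σ x i j + sc σ x i j) = fun x => s' x i j := by
      funext x; ring
    rwa [h2] at h
  have hs'cl : ∀ i j, Cl kr εr (fun x => s' x i j - sc σ x i j) := fun i j =>
    cl_mono (hext i j).2 (min_le_left _ _)
  have htsym : ∀ x, (t x).IsSymm := H158.isSymm_psh D hsym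
  have hs'sym : ∀ x, (s' x).IsSymm := by
    intro x
    by_cases hx : 0 < ρ x
    · simp only [s', hx, if_true]; exact htsym x
    · simp only [s', hx, if_false]; exact hscS x
  have hs'1 : ∀ x ∉ Om ρ, s' x = sc σ x := by
    intro x hx
    have hx' : ¬ 0 < ρ x := hx
    simp only [s', hx', if_false]
  have hs't : ∀ x ∈ Om ρ, s' x = t x := by
    intro x hx
    have hx' : 0 < ρ x := hx
    simp only [s', hx', if_true]
  have hst : St2 (Om ρ) (sc σ) s' :=
    st2_congr hO hs't (st2_of_SE weak hO hbd hscM hscS hscP ht htsym htp htSE)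
  obtain ⟨w', K', D', h1⟩ := hR (Om ρ) hO hic hOb s' hs'sm hs'sym hs'1 hs'cl hst
  have hw : ContDiff ℝ ∞ w := D.sw
  have hΦ : ContDiff ℝ ∞ (fun x => (x + w x) + w' (x + w x)) :=
    (contDiff_id.add hw).add (D'.sw.comp (contDiff_id.add hw))
  have hin : ∀ y, y ∉ Om ρ → y + w' y = y := fun y hy => by rw [D'.z y hy, add_zero]
  have hinj : ∀ y z, y + w' y = z + w' z → y = z := fun y z h => by
    rw [← D'.l y, h, D'.l z]
  have hJ : ∀ x, Jm (fun x => (x + w x) + w' (x + w x)) x = jm w' (x + w x) * jm w x :=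
    Jm_comp hw D'.sw
  refine ⟨fun x => (x + w x) + w' (x + w x), fun y => K (K' y), hΦ, D.sK.comp D'.sK, ?_, ?_, ?_,
    ?_, ?_, ?_⟩
  · intro x
    show K (K' ((x + w x) + w' (x + w x))) = x
    rw [D'.l, D.l]
  · intro y
    show (K (K' y) + w (K (K' y))) + w' (K (K' y) + w (K (K' y))) = y
    rw [D.r, D'.r]
  · intro x hx
    have hx' : x ∉ Om ρ := fun h => by
      have : 0 < ρ x := h
      rw [hx] at this
      exact lt_irrefl _ this
    show (x + w x) + w' (x + w x) = x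
    rw [hw0 x hx, add_zero]
    exact hin x hx'
  · intro x
    rw [← hside x]
    by_cases hy : x + w x ∈ Om ρ
    · refine ⟨fun _ => hy, fun _ => ?_⟩
      by_contra hc
      have h2 := hin _ hc
      have h3 := hinj _ _ h2
      exact hc (h3 ▸ hy)
    · show 0 < ρ ((x + w x) + w' (x + w x)) ↔ _
      rw [hin _ hy]
  · intro x
    rw [hJ, Matrix.det_mul]
    exact mul_pos (D'.dp _) (D.dp _)
  · set Φ : V n → V n := fun x => (x + w x) + w' (x + w x) with hΦd
    have hdet0 : ∀ x, (Jm Φ x).det ≠ 0 := fun x => by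
      rw [hJ, Matrix.det_mul]
      exact (mul_pos (D'.dp _) (D.dp _)).ne'
    have hdetc : Continuous fun x => (Jm Φ x).det := by
      have : Continuous fun x => Jm Φ x := continuous_matrix fun i j => continuous_Jm hΦ i j
      exact this.matrix_det
    have hclosed : IsClosed {x | (Jm Φ x).det⁻¹ • (Jm Φ x * s x * (Jm Φ x)ᵀ) = sc σ (Φ x)} := by
      have hset : {x | (Jm Φ x).det⁻¹ • (Jm Φ x * s x * (Jm Φ x)ᵀ) = sc σ (Φ x)} =
          ⋂ i, ⋂ j, {x | ((Jm Φ x).det⁻¹ • (Jm Φ x * s x * (Jm Φ x)ᵀ)) i j = sc σ (Φ x) i j} := by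
        ext x
        simp only [mem_ofPred_eq, mem_iInter]
        exact ⟨fun h i j => by rw [h], fun h => Matrix.ext h⟩
      rw [hset]
      refine isClosed_iInter fun i => isClosed_iInter fun j => isClosed_eq ?_
        ((hscM i j).continuous.comp hΦ.continuous)
      simp only [Matrix.smul_apply, smul_eq_mul, Matrix.mul_apply, Matrix.transpose_apply]
      refine (hdetc.inv₀ hdet0).mul ?_
      exact continuous_finsetSum _ fun l _ => (continuous_finsetSum _ fun l' _ =>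
        (continuous_Jm hΦ i l').mul (hs l' l).continuous).mul (continuous_Jm hΦ j l)
    have hsub : Om ρ ⊆ {x | (Jm Φ x).det⁻¹ • (Jm Φ x * s x * (Jm Φ x)ᵀ) = sc σ (Φ x)} := by
      intro x hx
      have hy : x + w x ∈ Om ρ := (hside x).2 hx
      show (Jm Φ x).det⁻¹ • (Jm Φ x * s x * (Jm Φ x)ᵀ) = sc σ (Φ x)
      rw [hJ]
      exact alg_pointX D D' x (hs't _ hy) (h1 _)
    intro x hx
    have hx' : x ∈ closure (Om ρ) := by rw [hcl]; exact hx
    exact closure_minimal hsub hclosed hx'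

end Vale.Agent.P088.LR.BY
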