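import Vale.Agent.P088.H72.X.Defs
import Vale.Agent.P088.H72.B.Fin
import Vale.Agent.P088.H442.CFAsm
import Vale.Agent.P088.H833.Phi
import Vale.Agent.P088.H639.St2

/-!
# P088, theorem B + CF: the assembly (row FIN)
-/

open MeasureTheory Set
open scoped ContDiff Matrix

noncomputable section

namespace Vale.Agent.P088.LR.BX

open Vale.Agent.P088.LR Vale.Agent.P088.LR.B Vale.Agent.P088.LR.CF Vale.Agent.P088.H639
  Vale.Agent.P088.LR.H72

variable {n : ℕ}

theorem dif_univ {Ω : Set (V n)} {w K : V n → V n} (D : Dif Ω w K) : Dif univ w K :=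
  ⟨D.sw, D.sK, D.l, D.r, fun x hx => absurd (mem_univ x) hx, D.dp⟩

/-- `St2` only sees the values in `Ω`. -/
theorem st2_congr {Ω : Set (V n)} (hO : IsOpen Ω) {s₁ s t : MF n} (h : ∀ x ∈ Ω, s x = t x)
    (hS : St2 Ω s₁ t) : St2 Ω s₁ s := by
  intro U W hU hW hU0 hW0
  have hdv : ∀ x ∈ Ω, dv t W x = 0 := by
    intro x hx
    rw [← hW0 x hx]
    unfold dv
    refine Finset.sum_congr rfl fun i _ => ?_
    unfold pd
    have : (fun y => ∑ j, (t y i j : ℂ) * fderiv ℝ W y (Pi.single j 1)) =ᶠ[nhds x]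
        (fun y => ∑ j, (s y i j : ℂ) * fderiv ℝ W y (Pi.single j 1)) := by
      filter_upwards [hO.mem_nhds hx] with y hy
      rw [h y hy]
    rw [this.fderiv_eq]
  rw [← hS U W hU hW hU0 hdv]
  unfold bl
  refine setIntegral_congr_fun hO.measurableSet fun x hx => ?_
  simp only [h x hx]

/-- The pointwise computation. -/
theorem alg_pointX {s s' : MF n} {σ : V n → ℝ} {w K w' K' : V n → V n} (D : Dif univ w K)
    {Ω : Set (V n)} (D' : Dif Ω w' K') (x : V n) (hs' : s' (x + w x) = psh s w K (x + w x))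
    (h1 : psh s' w' K' ((x + w x) + w' (x + w x)) = sc σ ((x + w x) + w' (x + w x))) :
    (jm w' (x + w x) * jm w x).det⁻¹ • ((jm w' (x + w x) * jm w x) * s x *
      (jm w' (x + w x) * jm w x)ᵀ) = sc σ ((x + w x) + w' (x + w x)) := by
  rw [← h1]
  unfold psh
  rw [D'.l, hs']
  unfold psh
  rw [D.l, Matrix.det_mul, Matrix.transpose_mul, mul_inv]
  simp only [Matrix.mul_smul, Matrix.smul_mul, smul_smul, mul_assoc]

/-- **The assembly.** -/
theorem finX (hT : RowTOPO) (hB : RowBOREL) (hM : BX.RowMAP) (hI : BX.RowINF) (hE : RowEXT)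
    (hR : ∀ n : ℕ, ∃ (k : ℕ) (ε : ℝ), 0 < ε ∧ Rig2 n k ε) : BX.RowFIN := by
  intro n hn ρ hρ hρb
  obtain ⟨hO, hOc, hfr, hcl, hic, hde⟩ := hT ρ hρ
  have hOb : Om ρ ⊆ bal n := by
    intro x hx
    by_contra h
    have h1 : 0 < ρ x := hx
    rw [hρb x h] at h1
    linarith
  have hbd : Bornology.IsBounded (Om ρ) := H833.bounded_core.subset hOc
  obtain ⟨kr, εr, hεr, hR⟩ := hR n
  obtain ⟨a₀, ha₀, hI⟩ := hI hn
  obtain ⟨C, ε₀, hC0, hε₀, hph⟩ := H833.phi n kr
  obtain ⟨C', ε₀', hC0', hε₀', hD⟩ := H634.rowDIF n 0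
  set η : ℝ := min (εr / 4) (a₀ / 2) with hη
  have hηp : 0 < η := lt_min (by positivity) (by positivity)
  have hη1 : η ≤ εr / 4 := min_le_left _ _
  have hη2 : η ≤ a₀ / 2 := min_le_right _ _
  set ε1 : ℝ := η / C with hε1
  have hε1p : 0 < ε1 := div_pos hηp hC0
  obtain ⟨δ1, hδ1, hN1⟩ := norm1 n kr ε1 hε1p
  obtain ⟨ε2, hε2p, hε2a, hε2b, hε2c, hε2d⟩ : ∃ ε2 : ℝ, 0 < ε2 ∧ C * ε2 ≤ δ1 ∧ C * ε2 ≤ 1 / 2 ∧
      ε2 ≤ ε₀ ∧ ε2 ≤ ε₀' := by
    refine ⟨min (min (δ1 / C) (1 / 2 / C)) (min ε₀ ε₀'), lt_min (lt_min (by positivity)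
      (by positivity)) (lt_min hε₀ hε₀'), ?_, ?_, (min_le_right _ _).trans (min_le_left _ _),
      (min_le_right _ _).trans (min_le_right _ _)⟩
    · have h1 : min (min (δ1 / C) (1 / 2 / C)) (min ε₀ ε₀') ≤ δ1 / C :=
        (min_le_left _ _).trans (min_le_left _ _)
      calc C * _ ≤ C * (δ1 / C) := mul_le_mul_of_nonneg_left h1 hC0.le
        _ = δ1 := by field_simp
    · have h1 : min (min (δ1 / C) (1 / 2 / C)) (min ε₀ ε₀') ≤ 1 / 2 / C :=
        (min_le_left _ _).trans (min_le_right _ _)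
      calc C * _ ≤ C * (1 / 2 / C) := mul_le_mul_of_nonneg_left h1 hC0.le
        _ = 1 / 2 := by field_simp
  obtain ⟨Kb, δ2, hδ2, hB⟩ := hB ρ hρ (kr + 2) ε2 hε2p
  refine ⟨max Kb kr, min (min δ2 δ1) (min η (1 / 2)), lt_min (lt_min hδ2 hδ1)
    (lt_min hηp (by norm_num)), fun σ hσ hσ1 hσcl s hs hsp hscl hSE => ?_⟩
  have e1 : min (min δ2 δ1) (min η (1 / 2)) ≤ δ2 := (min_le_left _ _).trans (min_le_left _ _)
  have e2 : min (min δ2 δ1) (min η (1 / 2)) ≤ δ1 := (min_le_left _ _).trans (min_le_right _ _)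
  have e3 : min (min δ2 δ1) (min η (1 / 2)) ≤ η := (min_le_right _ _).trans (min_le_left _ _)
  have e4 : min (min δ2 δ1) (min η (1 / 2)) ≤ 1 / 2 := (min_le_right _ _).trans (min_le_right _ _)
  have hpsd : ∀ x, (s x).PosSemidef := fun x => (hsp x).posSemidef
  have hsym : ∀ x, (s x).IsSymm := fun x => by
    have h : (s x)ᴴ = s x := (hsp x).1
    rwa [Matrix.conjTranspose_eq_transpose_of_trivial] at h
  have hscM : SmM (sc σ) := smM_sc442 hσ.1
  have hscS : ∀ x, (sc σ x).IsSymm := symm_sc442 σ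
  have hscP : ∀ x, (sc σ x).PosSemidef := fun x => (posDef_sc442 hσ.2 x).posSemidef
  have hσh : ∀ x, 1 / 2 ≤ σ x := by
    intro x
    have h := hσcl 0 (Nat.zero_le _) x
    rw [norm_iteratedFDeriv_zero, Real.norm_eq_abs] at h
    have h1 := (abs_le.1 (h.trans e4)).1
    linarith
  -- the two coordinate systems
  obtain ⟨w₁, hw₁, hwcl₁, hw0₁, hwn₁, hwd₁⟩ := hB (sc σ) hscM hscS fun i j =>
    cl_sc442 hδ2.le (H442.cl_le442 hσcl (le_max_left _ _) e1) i j
  obtain ⟨w₂, hw₂, hwcl₂, hw0₂, hwn₂, hwd₂⟩ := hB s hs hsym fun i j =>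
    H442.cl_le442 (hscl i j) (le_max_left _ _) e1
  obtain ⟨w, K, D0, hwcl, hwe, hcomp⟩ := hph {x | ρ x ≠ 0} w₁ w₂ hw₁ hw₂
    (fun x hx => by
      have hx0 : ρ x = 0 := not_not.1 hx
      rw [hw0₁ x hx0, hw0₂ x hx0]) ε2 hε2p.le hε2c hwcl₁ hwcl₂
  have D : Dif univ w K := dif_univ D0
  have hw0 : ∀ x, ρ x = 0 → w x = 0 := fun x hx => D0.z x fun h => h hx
  have hw1 : Cl 1 (1 / 2) w := fun l hl x => (hwcl l (by omega) x).trans hε2b
  obtain ⟨K₁, D1, -⟩ := hD univ w₁ hw₁ (fun x hx => absurd (mem_univ x) hx)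
    (H442.cl_le442 hwcl₁ (by omega) hε2d)
  obtain ⟨hside, hM⟩ := hM ρ hρ w K D hw0 hw1
  obtain ⟨ht, htp, htSE, htg⟩ := hM (sc σ) s hscM hs hpsd
  have htSE := htSE hSE
  have htn : ∀ a x, ρ x = 0 → gr (psh s w K) (fun y => y a + w₁ y a) ρ x =
      gr (sc σ) (fun y => y a + w₁ y a) ρ x := fun a =>
    (htg w₁ w₂ hw₁ hw₂ hwe a).1 fun x hx => by rw [hwn₂ a x hx, hwn₁ a x hx]
  have htd : ∀ a (m : ℕ), ∃ r > 0, ∃ E : V n → ℝ, ContDiff ℝ ∞ E ∧ ∀ x, |ρ x| < r →
      dr (psh s w K) (fun y => y a + w₁ y a) x = ρ x ^ m * E x := fun a m =>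
    (htg w₁ w₂ hw₁ hw₂ hwe a).2 m (hwd₂ a m)
  have htcl := hN1 univ s w K C hs D hcomp
    (fun i j => H442.cl_le442 (hscl i j) (le_max_right _ _) e2)
    (cl_mono hwcl hε2a)
  have hCe : C * ε1 = η := by rw [hε1]; field_simp
  rw [hCe] at htcl
  set t : MF n := psh s w K with htdef
  have hhcl : ∀ i j, Cl kr (2 * η) (fun x => t x i j - sc σ x i j) := by
    intro i j
    have h1 := cl_add442 ((ht i j).sub contDiff_const) ((hscM i j).sub contDiff_const)
      (htcl i j) (cl_sc442 hηp.le (H442.cl_le442 hσcl (le_max_right _ _) e3) i j)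
    have h2 : (fun x => t x i j - dl i j - (sc σ x i j - dl i j)) =
        fun x => t x i j - sc σ x i j := by
      funext x; ring
    have h3 : η + η = 2 * η := by ring
    rw [h3] at h1
    rw [← h2]
    exact h1
  have hta : ∀ x ∈ Om ρ, ∀ i j, |t x i j - sc σ x i j| ≤ a₀ := by
    intro x _ i j
    have h := hhcl i j 0 (Nat.zero_le _) x
    rw [norm_iteratedFDeriv_zero, Real.norm_eq_abs] at h
    linarith
  have hflat := hI ρ hρ σ hσ.1 hσh t ht htp htSE hta w₁ hw₁ (fun x _ => (D1.dp x).ne') htn htd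
    hwd₁
  -- the extension by `σ · 1`
  let s' : MF n := fun x => if 0 < ρ x then t x else sc σ x
  have he : ∀ i j, (fun x => s' x i j - sc σ x i j) =
      fun x => if 0 < ρ x then (t x i j - sc σ x i j) else 0 := by
    intro i j
    funext x
    by_cases hx : 0 < ρ x
    · simp only [s', hx, if_true]
    · simp only [s', hx, if_false]
      exact sub_self _
  have hext : ∀ i j, ContDiff ℝ ∞ (fun x => s' x i j - sc σ x i j) ∧
      Cl kr (2 * η) (fun x => s' x i j - sc σ x i j) := by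
    intro i j
    have h := hE ρ hρ (fun x => t x i j - sc σ x i j) ((ht i j).sub (hscM i j)) fun m => by
      obtain ⟨b, hb, hb'⟩ := hflat m
      exact ⟨b i j, hb i j, fun x => hb' x i j⟩
    rw [he i j]
    exact ⟨h.1, h.2 kr _ (hhcl i j)⟩
  have hs'sm : SmM s' := by
    intro i j
    have h := (hext i j).1.add (hscM i j)
    have h2 : (fun x => s' x i j - sc σ x i j + sc σ x i j) = fun x => s' x i j := by
      funext x; ring
    rwa [h2] at h
  have hs'cl : ∀ i j, Cl kr εr (fun x => s' x i j - (1 : Matrix (Fin n) (Fin n) ℝ) i j) := by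
    intro i j l hl x
    have hA : ContDiff ℝ ∞ (fun x => s' x i j - sc σ x i j) := (hext i j).1
    have hBs : ContDiff ℝ ∞ (fun x => sc σ x i j - dl i j) := (hscM i j).sub contDiff_const
    have e : (fun x => s' x i j - (1 : Matrix (Fin n) (Fin n) ℝ) i j) =
        (fun x => s' x i j - sc σ x i j) + fun x => sc σ x i j - dl i j := by
      funext x
      simp only [Pi.add_apply]
      ring
    rw [e, iteratedFDeriv_add_apply (hA.of_le (by exact_mod_cast le_top)).contDiffAt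
      (hBs.of_le (by exact_mod_cast le_top)).contDiffAt]
    have h1 := (hext i j).2 l hl x
    have h2 := cl_sc442 hηp.le (H442.cl_le442 hσcl (le_max_right _ _) e3) i j l hl x
    refine (norm_add_le _ _).trans ?_
    linarith
  have htsym : ∀ x, (t x).IsSymm := H158.isSymm_psh D hsym
  have hs'sym : ∀ x, (s' x).IsSymm := by
    intro x
    by_cases hx : 0 < ρ x
    · simp only [s', hx, if_true]; exact htsym x
    · simp only [s', hx, if_false]; exact hscS x
  have hs'1 : ∀ x ∉ Om ρ, s' x = sc σ x := by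
    intro x hx
    have hx' : ¬ 0 < ρ x := hx
    simp only [s', hx', if_false]
  have hs't : ∀ x ∈ Om ρ, s' x = t x := by
    intro x hx
    have hx' : 0 < ρ x := hx
    simp only [s', hx', if_true]
  have hst : St2 (Om ρ) (sc σ) s' :=
    st2_congr hO hs't (st2_of_SE weak hO hbd hscM hscS hscP ht htsym htp htSE)
  obtain ⟨w', K', D', h1⟩ := hR (Om ρ) hO hic hOb σ s' hσ.1 hσ.2 hσ1 hs'sm hs'sym hs'1
    (H442.cl_le442 hσcl (le_max_right _ _) (e3.trans (hη1.trans (by linarith)))) hs'cl hst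
  have hw : ContDiff ℝ ∞ w := D.sw
  have hΦ : ContDiff ℝ ∞ (fun x => (x + w x) + w' (x + w x)) :=
    (contDiff_id.add hw).add (D'.sw.comp (contDiff_id.add hw))
  have hin : ∀ y, y ∉ Om ρ → y + w' y = y := fun y hy => by rw [D'.z y hy, add_zero]
  have hinj : ∀ y z, y + w' y = z + w' z → y = z := fun y z h => by
    rw [← D'.l y, h, D'.l z]
  have hJ : ∀ x, Jm (fun x => (x + w x) + w' (x + w x)) x = jm w' (x + w x) * jm w x :=
    Jm_comp hw D'.sw
  refine ⟨fun x => (x + w x) + w' (x + w x), fun y => K (K' y), hΦ, D.sK.comp D'.sK, ?_, ?_, ?_,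
    ?_, ?_, ?_⟩
  · intro x
    show K (K' ((x + w x) + w' (x + w x))) = x
    rw [D'.l, D.l]
  · intro y
    show (K (K' y) + w (K (K' y))) + w' (K (K' y) + w (K (K' y))) = y
    rw [D.r, D'.r]
  · intro x hx
    have hx' : x ∉ Om ρ := fun h => by
      have : 0 < ρ x := h
      rw [hx] at this
      exact lt_irrefl _ this
    show (x + w x) + w' (x + w x) = x
    rw [hw0 x hx, add_zero]
    exact hin x hx'
  · intro x
    rw [← hside x]
    by_cases hy : x + w x ∈ Om ρ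
    · refine ⟨fun _ => hy, fun _ => ?_⟩
      by_contra hc
      have h2 := hin _ hc
      have h3 := hinj _ _ h2
      exact hc (h3 ▸ hy)
    · show 0 < ρ ((x + w x) + w' (x + w x)) ↔ _
      rw [hin _ hy]
  · intro x
    rw [hJ, Matrix.det_mul]
    exact mul_pos (D'.dp _) (D.dp _)
  · set Φ : V n → V n := fun x => (x + w x) + w' (x + w x) with hΦd
    have hdet0 : ∀ x, (Jm Φ x).det ≠ 0 := fun x => by
      rw [hJ, Matrix.det_mul]
      exact (mul_pos (D'.dp _) (D.dp _)).ne'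
    have hdetc : Continuous fun x => (Jm Φ x).det := by
      have : Continuous fun x => Jm Φ x := continuous_matrix fun i j => continuous_Jm hΦ i j
      exact this.matrix_det
    have hclosed : IsClosed {x | (Jm Φ x).det⁻¹ • (Jm Φ x * s x * (Jm Φ x)ᵀ) = sc σ (Φ x)} := by
      have hset : {x | (Jm Φ x).det⁻¹ • (Jm Φ x * s x * (Jm Φ x)ᵀ) = sc σ (Φ x)} =
          ⋂ i, ⋂ j, {x | ((Jm Φ x).det⁻¹ • (Jm Φ x * s x * (Jm Φ x)ᵀ)) i j = sc σ (Φ x) i j} := by
        ext x
        simp only [mem_ofPred_eq, mem_iInter]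
        exact ⟨fun h i j => by rw [h], fun h => Matrix.ext h⟩
      rw [hset]
      refine isClosed_iInter fun i => isClosed_iInter fun j => isClosed_eq ?_
        ((hscM i j).continuous.comp hΦ.continuous)
      simp only [Matrix.smul_apply, smul_eq_mul, Matrix.mul_apply, Matrix.transpose_apply]
      refine (hdetc.inv₀ hdet0).mul ?_
      exact continuous_finsetSum _ fun l _ => (continuous_finsetSum _ fun l' _ =>
        (continuous_Jm hΦ i l').mul (hs l' l).continuous).mul (continuous_Jm hΦ j l)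
    have hsub : Om ρ ⊆ {x | (Jm Φ x).det⁻¹ • (Jm Φ x * s x * (Jm Φ x)ᵀ) = sc σ (Φ x)} := by
      intro x hx
      have hy : x + w x ∈ Om ρ := (hside x).2 hx
      show (Jm Φ x).det⁻¹ • (Jm Φ x * s x * (Jm Φ x)ᵀ) = sc σ (Φ x)
      rw [hJ]
      exact alg_pointX D D' x (hs't _ hy) (h1 _)
    intro x hx
    have hx' : x ∈ closure (Om ρ) := by rw [hcl]; exact hx
    exact closure_minimal hsub hclosed hx'

end Vale.Agent.P088.LR.BX
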