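import Vale.Agent.P088.H72.X.Defs2
import Vale.Agent.P088.H72.Norm
import Vale.Agent.P088.H634.Dif
import Vale.Agent.P088.H833.Phi
import Vale.Agent.P088.H833.Ser

/-!
# P088, theorem B + C: rows PHI and NORM
-/

open MeasureTheory Set Filter Topology
open scoped ContDiff Matrix

noncomputable section

namespace Vale.Agent.P088.LR.BY

open Vale.Agent.P088.LR Vale.Agent.P088.LR.B Vale.Agent.P088.LR.CF Vale.Agent.P088.H833

variable {n : ℕ}

/-- Functions of `(x, v)` which vanish for `v = 0` and for `x` off `A`. -/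
structure GG (A : Set (V n)) {ι : Type} [Fintype ι] (G : V n × (ι → ℝ) → ℝ) : Prop where
  sm : ContDiff ℝ ∞ G
  z : ∀ x, G (x, 0) = 0
  off : ∀ x ∉ A, ∀ v : ι → ℝ, ‖v‖ < 1 → G (x, v) = 0

section GG

variable {A : Set (V n)} {ι : Type} [Fintype ι] {G : V n × (ι → ℝ) → ℝ}

theorem GG.fd_off (hG : GG A G) (hA : IsClosed A) {x : V n} (hx : x ∉ A) {v : ι → ℝ}
    (hv : ‖v‖ < 1) : fderiv ℝ G (x, v) = 0 := by
  have h1 : G =ᶠ[𝓝 (x, v)] fun _ => 0 := by
    have h2 : ∀ᶠ p : V n × (ι → ℝ) in 𝓝 (x, v), p.1 ∉ A :=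
      (continuous_fst.continuousAt (x := (x, v))).eventually
        (hA.isOpen_compl.mem_nhds (show (x, v).1 ∈ Aᶜ from hx))
    have h3 : ∀ᶠ p : V n × (ι → ℝ) in 𝓝 (x, v), ‖p.2‖ < 1 :=
      (continuous_snd.norm.continuousAt).eventually (gt_mem_nhds hv)
    filter_upwards [h2, h3] with p hp1 hp2
    exact hG.off p.1 hp1 p.2 hp2
  rw [h1.fderiv_eq]
  simp

theorem GG.dx (hG : GG A G) (hA : IsClosed A) (i : Fin n) :
    GG A (fun p : V n × (ι → ℝ) => fderiv ℝ G p (Pi.single i 1, 0)) := by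
  refine ⟨?_, fun x => ?_, fun x hx v hv => ?_⟩
  · exact (hG.sm.fderiv_right (by simp)).clm_apply contDiff_const
  · have h1 : HasFDerivAt (fun y : V n => G (y, (0 : ι → ℝ)))
        ((fderiv ℝ G (x, 0)).comp ((ContinuousLinearMap.id ℝ (V n)).prod 0)) x :=
      HasFDerivAt.comp x (f := fun y : V n => (y, (0 : ι → ℝ)))
        (hG.sm.differentiable (by simp) _).hasFDerivAt
        ((hasFDerivAt_id x).prodMk (hasFDerivAt_const _ _))
    have h2 : (fun y : V n => G (y, (0 : ι → ℝ))) = fun _ => 0 := funext hG.z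
    rw [h2] at h1
    have h3 := h1.unique (hasFDerivAt_const _ _)
    have h4 := congrArg (fun T : V n →L[ℝ] ℝ => T (Pi.single i 1)) h3
    simpa using h4
  · show fderiv ℝ G (x, v) _ = 0
    rw [hG.fd_off hA hx hv]
    rfl

theorem GG.dv (hG : GG A G) (hA : IsClosed A) [DecidableEq ι] :
    GG A (fun p : V n × (ι ⊕ ι → ℝ) => ∑ a, fderiv ℝ G (p.1, fun b => p.2 (Sum.inl b))
      (0, Pi.single a 1) * p.2 (Sum.inr a)) := by
  refine ⟨?_, fun x => ?_, fun x hx v hv => ?_⟩
  · refine ContDiff.sum fun a _ => ContDiff.mul ?_ ?_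
    · have h1 : ContDiff ℝ ∞ fun p : V n × (ι ⊕ ι → ℝ) =>
          ((p.1, fun b => p.2 (Sum.inl b)) : V n × (ι → ℝ)) :=
        contDiff_fst.prodMk (contDiff_pi.2 fun b => (contDiff_apply ℝ ℝ (Sum.inl b : ι ⊕ ι)).comp
          contDiff_snd)
      exact ((hG.sm.fderiv_right (by simp)).comp h1).clm_apply contDiff_const
    · exact (contDiff_apply ℝ ℝ (Sum.inr a : ι ⊕ ι)).comp contDiff_snd
  · simp
  · have h1 : ‖fun b => v (Sum.inl b)‖ < 1 := by
      refine lt_of_le_of_lt ?_ hv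
      exact (pi_norm_le_iff_of_nonneg (norm_nonneg _)).2 fun b => norm_le_pi_norm v (Sum.inl b)
    show ∑ a, fderiv ℝ G (x, fun b => v (Sum.inl b)) (0, Pi.single a 1) * v (Sum.inr a) = 0
    rw [hG.fd_off hA hx h1]
    simp

end GG

/-- `f` together with its partial derivative. -/
def ext2 {ι : Type} (i : Fin n) (f : V n → ι → ℝ) : V n → ι ⊕ ι → ℝ := fun x =>
  Sum.elim (f x) (fun a => pd i (fun y => f y a) x)

theorem ext2_smooth {ι : Type} [Fintype ι] (i : Fin n) {f : V n → ι → ℝ} (hf : ContDiff ℝ ∞ f) :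
    ContDiff ℝ ∞ (ext2 i f) := by
  refine contDiff_pi.2 fun b => ?_
  rcases b with b | b
  · exact contDiff_pi.1 hf b
  · exact cd_pd (contDiff_pi.1 hf b) i

theorem pd_GG {ι : Type} [Fintype ι] [DecidableEq ι] {G : V n × (ι → ℝ) → ℝ}
    (hG : ContDiff ℝ ∞ G) {f : V n → ι → ℝ} (hf : ContDiff ℝ ∞ f) (i : Fin n) (x : V n) :
    pd i (fun y => G (y, f y)) x = fderiv ℝ G (x, f x) (Pi.single i 1, 0) +
      ∑ a, fderiv ℝ G (x, fun b => ext2 i f x (Sum.inl b)) (0, Pi.single a 1) *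
        ext2 i f x (Sum.inr a) := by
  have h1 : HasFDerivAt (fun y : V n => G (y, f y))
      ((fderiv ℝ G (x, f x)).comp ((ContinuousLinearMap.id ℝ (V n)).prod (fderiv ℝ f x))) x :=
    HasFDerivAt.comp x (f := fun y : V n => (y, f y)) (hG.differentiable (by simp) _).hasFDerivAt
      ((hasFDerivAt_id x).prodMk (hf.differentiable (by simp) x).hasFDerivAt)
  have h2 : ∀ a, fderiv ℝ f x (Pi.single i 1) a = pd i (fun y => f y a) x := by
    intro a
    have h3 : HasFDerivAt (fun y => f y a)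
        ((ContinuousLinearMap.proj (R := ℝ) (φ := fun _ : ι => ℝ) a).comp (fderiv ℝ f x)) x :=
      (ContinuousLinearMap.proj (R := ℝ) (φ := fun _ : ι => ℝ) a).hasFDerivAt.comp x
        (hf.differentiable (by simp) x).hasFDerivAt
    unfold pd
    rw [h3.fderiv]
    rfl
  unfold pd at *
  rw [h1.fderiv]
  have h4 : ((Pi.single i 1 : V n), fderiv ℝ f x (Pi.single i 1)) =
      ((Pi.single i 1 : V n), (0 : ι → ℝ)) + ∑ a, (fderiv ℝ f x (Pi.single i 1) a) •
        ((0 : V n), (Pi.single a 1 : ι → ℝ)) := by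
    have h5 : fderiv ℝ f x (Pi.single i 1) = ∑ a, (fderiv ℝ f x (Pi.single i 1) a) •
        (Pi.single a 1 : ι → ℝ) := by
      funext b
      simp [Finset.sum_apply, Pi.single_apply]
    ext b
    · simp [Prod.fst_sum]
    · simp only [Prod.snd_add, zero_add, Prod.snd_sum, Prod.smul_snd]
      conv_lhs => rw [h5]
  show fderiv ℝ G (x, f x) ((Pi.single i 1 : V n), fderiv ℝ f x (Pi.single i 1)) = _
  rw [h4, map_add, map_sum]
  congr 1
  refine Finset.sum_congr rfl fun a _ => ?_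
  rw [map_smul, smul_eq_mul, mul_comm]
  congr 1
  exact h2 a

theorem cl_zero {g : V n → ℝ} {ε : ℝ} (h : ∀ x, |g x| ≤ ε) : Cl 0 ε g := by
  intro l hl x
  have : l = 0 := by omega
  subst this
  rw [norm_iteratedFDeriv_zero]
  exact h x

theorem cl_succ {g : V n → ℝ} (hg : ContDiff ℝ ∞ g) {k : ℕ} {η ε : ℝ} (h0 : Cl 0 ε g)
    (hη : n * η ≤ ε) (h : ∀ i, Cl k η (pd i g)) : Cl (k + 1) ε g := by
  intro l hl x
  rcases l with _ | l
  · exact h0 0 le_rfl x
  · rw [← norm_iteratedFDeriv_fderiv]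
    let L : Fin n → (ℝ →L[ℝ] (V n →L[ℝ] ℝ)) := fun i =>
      ContinuousLinearMap.smulRight (1 : ℝ →L[ℝ] ℝ)
        (ContinuousLinearMap.proj (R := ℝ) (φ := fun _ : Fin n => ℝ) i)
    have hL : ∀ i, ‖L i‖ ≤ 1 := by
      intro i
      refine ContinuousLinearMap.opNorm_le_bound _ zero_le_one fun t => ?_
      refine ContinuousLinearMap.opNorm_le_bound _ (by positivity) fun v => ?_
      show ‖t * v i‖ ≤ _
      rw [norm_mul, one_mul]
      exact mul_le_mul_of_nonneg_left (norm_le_pi_norm v i) (norm_nonneg _)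
    have e : fderiv ℝ g = fun y => ∑ i, (L i ∘ pd i g) y := by
      funext y
      ext v
      have hv : v = ∑ i, v i • (Pi.single i (1 : ℝ) : V n) := by
        funext j
        simp [Finset.sum_apply, Pi.single_apply]
      conv_lhs => rw [hv]
      rw [map_sum, sum_apply]
      refine Finset.sum_congr rfl fun i _ => ?_
      rw [map_smul, smul_eq_mul, mul_comm]
      rfl
    have hsm : ∀ i, ContDiff ℝ ∞ (L i ∘ pd i g) := fun i => (L i).contDiff.comp (cd_pd hg i)
    have e2 : iteratedFDeriv ℝ l (fun y => ∑ i, (L i ∘ pd i g) y) x =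
        ∑ i, iteratedFDeriv ℝ l (L i ∘ pd i g) x := by
      have := iteratedFDeriv_sum (𝕜 := ℝ) (u := Finset.univ) (i := l)
        (f := fun i => L i ∘ pd i g)
        (fun i _ => (hsm i).of_le (by exact_mod_cast le_top))
      exact (congrFun this x).trans (Finset.sum_apply _ _ _)
    rw [e, e2]
    refine (norm_sum_le _ _).trans ?_
    calc ∑ i, ‖iteratedFDeriv ℝ l (L i ∘ pd i g) x‖ ≤ ∑ _i : Fin n, η := by
          refine Finset.sum_le_sum fun i _ => ?_
          refine (ContinuousLinearMap.norm_iteratedFDeriv_comp_left (L i)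
            (cd_pd hg i).contDiffAt (by exact_mod_cast le_top)).trans ?_
          have h1 := h i l (by omega) x
          calc ‖L i‖ * ‖iteratedFDeriv ℝ l (pd i g) x‖ ≤ 1 * ‖iteratedFDeriv ℝ l (pd i g) x‖ :=
                mul_le_mul_of_nonneg_right (hL i) (norm_nonneg _)
            _ ≤ η := by rw [one_mul]; exact h1
      _ = n * η := by simp
      _ ≤ ε := hη

theorem smallA0 {A : Set (V n)} (hA : IsCompact A) {ι : Type} [Fintype ι]
    {G : V n × (ι → ℝ) → ℝ} (hG : GG A G) {ε : ℝ} (hε : 0 < ε) :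
    ∃ δ > 0, ∀ f : V n → ι → ℝ, (∀ a, Cl 0 δ (fun x => f x a)) →
      Cl 0 ε (fun x => G (x, f x)) := by
  have hO : IsOpen {p : V n × (ι → ℝ) | |G p| < ε} :=
    isOpen_lt hG.sm.continuous.abs continuous_const
  have hsub : A ×ˢ ({0} : Set (ι → ℝ)) ⊆ {p : V n × (ι → ℝ) | |G p| < ε} := by
    rintro ⟨x, v⟩ ⟨_, hv⟩
    have hv' : v = 0 := hv
    subst hv'
    show |G (x, 0)| < ε
    rw [hG.z x, abs_zero]
    exact hε
  obtain ⟨u, v, hu, hv, hAu, h0v, huv⟩ := generalized_tube_lemma hA isCompact_singleton hO hsub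
  obtain ⟨r, hr, hrv⟩ := Metric.isOpen_iff.1 hv 0 (h0v rfl)
  refine ⟨min (r / 2) (1 / 2), by positivity, fun f hf => cl_zero fun x => ?_⟩
  have hfx : ‖f x‖ ≤ min (r / 2) (1 / 2) := by
    refine (pi_norm_le_iff_of_nonneg (by positivity)).2 fun a => ?_
    have h1 := hf a 0 le_rfl x
    rwa [norm_iteratedFDeriv_zero] at h1
  by_cases hx : x ∈ A
  · have h1 : (x, f x) ∈ u ×ˢ v := by
      refine ⟨hAu hx, hrv ?_⟩
      rw [mem_ball_zero_iff]
      exact lt_of_le_of_lt (hfx.trans (min_le_left _ _)) (by linarith)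
    exact (huv h1).le
  · have h1 : ‖f x‖ < 1 := lt_of_le_of_lt (hfx.trans (min_le_right _ _)) (by norm_num)
    show |G (x, f x)| ≤ ε
    rw [hG.off x hx _ h1, abs_zero]
    exact hε.le

/-- **Composition: `G (x, f x)` is small if `f` is small.** -/
theorem smallA (k : ℕ) : ∀ {A : Set (V n)}, IsCompact A → ∀ {ι : Type} [Fintype ι]
    {G : V n × (ι → ℝ) → ℝ}, GG A G → ∀ {ε : ℝ}, 0 < ε →
    ∃ δ > 0, ∀ f : V n → ι → ℝ, ContDiff ℝ ∞ f → (∀ a, Cl k δ (fun x => f x a)) →
      Cl k ε (fun x => G (x, f x)) := by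
  induction k with
  | zero =>
    intro A hA ι _ G hG ε hε
    obtain ⟨δ, hδ, h⟩ := smallA0 hA hG hε
    exact ⟨δ, hδ, fun f _ hf => h f hf⟩
  | succ k ih =>
    intro A hA ι _ G hG ε hε
    classical
    obtain ⟨δ0, hδ0, h0⟩ := smallA0 hA hG hε
    set η : ℝ := ε / (n + 1) / 2 with hη
    have hηp : 0 < η := by positivity
    have hx := fun i : Fin n => ih hA (hG.dx hA.isClosed i) hηp
    choose dx hdx hx using hx
    obtain ⟨dv, hdv, hv⟩ := ih hA (hG.dv hA.isClosed) hηp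
    obtain ⟨δ1, hδ1, h1⟩ := H72.exists_pos_le dx hdx
    refine ⟨min δ0 (min δ1 dv), lt_min hδ0 (lt_min hδ1 hdv), fun f hf hcl => ?_⟩
    have hg : ContDiff ℝ ∞ (fun x => G (x, f x)) := hG.sm.comp (contDiff_id.prodMk hf)
    refine cl_succ hg (η := 2 * η) (h0 f fun a l hl x => (hcl a l (by omega) x).trans
      (min_le_left _ _)) ?_ fun i => ?_
    · have : 2 * η = ε / (n + 1) := by rw [hη]; ring
      rw [this, ← mul_div_assoc, div_le_iff₀ (by positivity)]
      nlinarith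
    · have e : pd i (fun x => G (x, f x)) = fun x =>
          (fun p : V n × (ι → ℝ) => fderiv ℝ G p (Pi.single i 1, 0)) (x, f x) +
          (fun p : V n × (ι ⊕ ι → ℝ) => ∑ a, fderiv ℝ G (p.1, fun b => p.2 (Sum.inl b))
            (0, Pi.single a 1) * p.2 (Sum.inr a)) (x, ext2 i f x) := by
        funext x
        exact pd_GG hG.sm hf i x
      rw [e]
      have c1 := hx i f hf fun a l hl y => (hcl a l (by omega) y).trans
        ((min_le_right _ _).trans ((min_le_left _ _).trans (h1 i)))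
      have c2 := hv (ext2 i f) (ext2_smooth i hf) fun b => by
        rcases b with b | b
        · exact fun l hl y => (hcl b l (by omega) y).trans
            ((min_le_right _ _).trans (min_le_right _ _))
        · exact cl_pd1 (contDiff_pi.1 hf b) (fun l hl y => (hcl b l hl y).trans
            ((min_le_right _ _).trans (min_le_right _ _))) i
      have s1 : ContDiff ℝ ∞ fun x => (fun p : V n × (ι → ℝ) =>
          fderiv ℝ G p (Pi.single i 1, 0)) (x, f x) :=
        (hG.dx hA.isClosed i).sm.comp (contDiff_id.prodMk hf)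
      have s2 : ContDiff ℝ ∞ fun x => (fun p : V n × (ι ⊕ ι → ℝ) =>
          ∑ a, fderiv ℝ G (p.1, fun b => p.2 (Sum.inl b))
            (0, Pi.single a 1) * p.2 (Sum.inr a)) (x, ext2 i f x) :=
        (hG.dv hA.isClosed).sm.comp (contDiff_id.prodMk (ext2_smooth i hf))
      have c3 := cl_add s1 s2 c1 c2
      have e3 : η + η = 2 * η := by ring
      rwa [e3] at c3

end Vale.Agent.P088.LR.BY
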