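import Vale.Agent.P088.H72.X.Fin
import Vale.Agent.P088.H72.X.Map
import Vale.Agent.P088.H397.XInf
import Vale.Agent.P088.H607.XSc
import Vale.Agent.P088.H292.BExt
import Vale.Agent.P088.H873.BTopo
import Vale.Agent.P088.H641.BHad
import Vale.Agent.P088.H501.BorelRow
import Vale.Agent.P088.H442.CFTop

/-!
# P088, theorem B + CF over the last row
-/

noncomputable section

namespace Vale.Agent.P088.LR.BX

open Vale.Agent.P088.LR Vale.Agent.P088.LR.B

/-- Local rigidity of the conformally flat metrics near the flat one on every smooth bounded
domain, no condition at the boundary, over the last row. -/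
theorem finC_of_bd (hBD : BX.RowBD) : FinC :=
  H607.finC (finX H873.topo H501B.rowBOREL map (H397.xinf H641.rowHAD hBD H873.topo) H292.ext
    CF.rig442)

end Vale.Agent.P088.LR.BX
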