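import Vale.Agent.P088.H72.X.Top
import Vale.Agent.P088.H72.X.FinY
import Vale.Agent.P088.H72.X.Bor
import Vale.Agent.P088.H109.XBd
import Vale.Agent.P088.H397.YInf
import Vale.Agent.P088.H639.ConXRow
import Vale.Agent.P088.H607.YSc

/-!
# P088, theorem B + CF, and theorem B + C over the interior half `RigC`
-/

noncomputable section

namespace Vale.Agent.P088.LR.BX

open Vale.Agent.P088.LR Vale.Agent.P088.LR.B

/-- **Local rigidity of the conformally flat metrics near the flat one on every smooth bounded
domain, no condition at the boundary.** -/
theorem finC_all : FinC := finC_of_bd (H109.bdX H639.rowCON)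

end Vale.Agent.P088.LR.BX

namespace Vale.Agent.P088.LR.BY

open Vale.Agent.P088.LR Vale.Agent.P088.LR.B

/-- Local rigidity of every conformally flat metric on every smooth bounded domain, no condition
at the boundary, over the interior half. -/
theorem finCC_of (hR : ∀ n : ℕ, 3 ≤ n → BY.RigC n) : FinCC :=
  H607.finCC (finY H873.topo rowBOR rowPHI rowNORM BX.map
    (H397.yinf H641.rowHAD (H109.bdY H639.rowCON) H873.topo) H292.ext hR)

end Vale.Agent.P088.LR.BY
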